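import Vale.Agent.P315.H659.Loc
import Vale.Agent.P315.H731.Tape

/-!
P315, row C-H3, part G5: the seed array. The random data are read from one array of numbers
(jitters first, then the coins); if the array is uniform, the data have the law used in the
analysis.
-/

set_option autoImplicit false

open Finset

namespace Vale.Agent.P315.H659

open C

/-! ### The layout of the seed array -/

/-- Address of a jitter. -/
def adXi (M l m : ℕ) : ℕ := l * M + m

/-- Address of a coin. -/
def adCoin (n M S Cn l s c : ℕ) : ℕ := (n + 1) * M + ((l * S + s) * Cn + c)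

/-- Number of the seed words used. -/
def nSeed (n M S Cn : ℕ) : ℕ := (n + 1) * M + (n + 1) * S * Cn

/-- The random data stored in the array `a`. -/
def rndOf (n M S Cn J : ℕ) (a : ℕ → ℕ) : Rnd where
  xi := fun l m => if l < n + 1 ∧ m < M then a (adXi M l m) % (J + 1) else 0
  coin := fun l s c => if l < n + 1 ∧ s < S ∧ c < Cn then a (adCoin n M S Cn l s c) else 0

/-- Address of a seed word. -/
def adr {n M S Cn : ℕ} : Ix n M S Cn → ℕ
  | .inl x => adXi M x.1 x.2
  | .inr x => adCoin n M S Cn x.1 x.2.1 x.2.2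

theorem adXi_lt {n M l m : ℕ} (hl : l < n + 1) (hm : m < M) : adXi M l m < (n + 1) * M := by
  unfold adXi
  calc l * M + m < l * M + M := by omega
    _ = (l + 1) * M := by ring
    _ ≤ (n + 1) * M := Nat.mul_le_mul_right _ hl

theorem adCoin_lt {n M S Cn l s c : ℕ} (hl : l < n + 1) (hs : s < S) (hc : c < Cn) :
    adCoin n M S Cn l s c < nSeed n M S Cn := by
  unfold adCoin nSeed
  have h1 : l * S + s + 1 ≤ (n + 1) * S := by
    calc l * S + s + 1 ≤ l * S + S := by omega
      _ = (l + 1) * S := by ring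
      _ ≤ (n + 1) * S := Nat.mul_le_mul_right _ hl
  have h2 : (l * S + s) * Cn + c < (n + 1) * S * Cn := by
    calc (l * S + s) * Cn + c < (l * S + s) * Cn + Cn := by omega
      _ = (l * S + s + 1) * Cn := by ring
      _ ≤ (n + 1) * S * Cn := Nat.mul_le_mul_right _ h1
  omega

theorem adr_lt {n M S Cn : ℕ} (i : Ix n M S Cn) : adr i < nSeed n M S Cn := by
  rcases i with x | x
  · have := adXi_lt (n := n) (M := M) x.1.isLt x.2.isLt
    have h2 : (n + 1) * M ≤ nSeed n M S Cn := Nat.le_add_right _ _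
    exact lt_of_lt_of_le this h2
  · exact adCoin_lt x.1.isLt x.2.1.isLt x.2.2.isLt

theorem mul_add_inj {a b c d M : ℕ} (hb : b < M) (hd : d < M) (h : a * M + b = c * M + d) :
    a = c ∧ b = d := by
  have hM : 0 < M := by omega
  have h1 : (a * M + b) / M = a := by
    rw [mul_comm, Nat.mul_add_div hM, Nat.div_eq_of_lt hb, add_zero]
  have h2 : (c * M + d) / M = c := by
    rw [mul_comm, Nat.mul_add_div hM, Nat.div_eq_of_lt hd, add_zero]
  have hac : a = c := by rw [← h1, ← h2, h]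
  subst hac
  exact ⟨rfl, by omega⟩

theorem adr_injective {n M S Cn : ℕ} : Function.Injective (adr (n := n) (M := M) (S := S)
    (Cn := Cn)) := by
  intro i i' h
  rcases i with ⟨l, m⟩ | ⟨l, s, c⟩ <;> rcases i' with ⟨l', m'⟩ | ⟨l', s', c'⟩
  · obtain ⟨h1, h2⟩ := mul_add_inj m.isLt m'.isLt (show (l : ℕ) * M + m = l' * M + m' from h)
    rw [Fin.ext h1, Fin.ext h2]
  · exfalso
    have h1 := adXi_lt (n := n) (M := M) l.isLt m.isLt
    have h2 : adXi M l m = adCoin n M S Cn l' s' c' := h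
    unfold adCoin at h2
    omega
  · exfalso
    have h1 := adXi_lt (n := n) (M := M) l'.isLt m'.isLt
    have h2 : adCoin n M S Cn l s c = adXi M l' m' := h
    unfold adCoin at h2
    omega
  · have h0 : adCoin n M S Cn l s c = adCoin n M S Cn l' s' c' := h
    unfold adCoin at h0
    obtain ⟨h1, h2⟩ := mul_add_inj c.isLt c'.isLt (Nat.add_left_cancel h0)
    obtain ⟨h3, h4⟩ := mul_add_inj s.isLt s'.isLt h1
    rw [Fin.ext h2, Fin.ext h3, Fin.ext h4]

/-- The array given by finitely many words. -/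
def arrOf {N q : ℕ} (c : Fin N → Fin q) : ℕ → ℕ := fun i => if h : i < N then c ⟨i, h⟩ else 0

theorem rndOf_arrOf {n M S Cn N q : ℕ} (J : ℕ) (hN : nSeed n M S Cn ≤ N) (c : Fin N → Fin q) :
    rndOf n M S Cn J (arrOf c) =
      toRnd J (fun i : Ix n M S Cn => c ⟨adr i, lt_of_lt_of_le (adr_lt i) hN⟩) := by
  have e1 : (rndOf n M S Cn J (arrOf c)).xi = (toRnd J (fun i : Ix n M S Cn =>
      c ⟨adr i, lt_of_lt_of_le (adr_lt i) hN⟩)).xi := by
    funext l m
    unfold rndOf toRnd arrOf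
    dsimp only
    by_cases h : l < n + 1 ∧ m < M
    · have h2 : adXi M l m < N := lt_of_lt_of_le (adXi_lt h.1 h.2)
        ((Nat.le_add_right _ _).trans hN)
      rw [if_pos h, dif_pos h, dif_pos h2]
      rfl
    · rw [if_neg h, dif_neg h]
  have e2 : (rndOf n M S Cn J (arrOf c)).coin = (toRnd J (fun i : Ix n M S Cn =>
      c ⟨adr i, lt_of_lt_of_le (adr_lt i) hN⟩)).coin := by
    funext l s k
    unfold rndOf toRnd arrOf
    dsimp only
    by_cases h : l < n + 1 ∧ s < S ∧ k < Cn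
    · have h2 : adCoin n M S Cn l s k < N := lt_of_lt_of_le (adCoin_lt h.1 h.2.1 h.2.2) hN
      rw [if_pos h, dif_pos h, dif_pos h2]
      rfl
    · rw [if_neg h, dif_neg h]
  cases hA : rndOf n M S Cn J (arrOf c)
  cases hB : toRnd J (fun i : Ix n M S Cn => c ⟨adr i, lt_of_lt_of_le (adr_lt i) hN⟩)
  rw [hA, hB] at e1 e2
  simp only at e1 e2
  rw [e1, e2]

/-- **The law of the random data** read from a uniform array. -/
theorem av_rndOf {n M S Cn N q : ℕ} (J : ℕ) (hN : nSeed n M S Cn ≤ N) (hq : 0 < q)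
    (F : Rnd → ℝ) :
    H731.av (fun c : Fin N → Fin q => F (rndOf n M S Cn J (arrOf c))) =
      H731.av (fun w : Ix n M S Cn → Fin q => F (toRnd J w)) := by
  have : Nonempty (Fin q) := ⟨⟨0, hq⟩⟩
  rw [H731.av_congr fun c => by rw [rndOf_arrOf J hN c]]
  have hinj : Function.Injective (fun i : Ix n M S Cn =>
      (⟨adr i, lt_of_lt_of_le (adr_lt i) hN⟩ : Fin N)) := by
    intro i i' h
    exact adr_injective (Fin.ext_iff.mp h)
  exact H731.av_restrict _ hinj (fun w : Ix n M S Cn → Fin q => F (toRnd J w))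

/-! ### The jitters alone -/

/-- The jitters as a function of the seed words. -/
def jits {n M S Cn q : ℕ} (J : ℕ) (w : Ix n M S Cn → Fin q) :
    Fin (n + 1) × Fin M → Fin (J + 1) :=
  fun x => ⟨(w (.inl x) : ℕ) % (J + 1), Nat.mod_lt _ (Nat.succ_pos J)⟩

theorem toRnd_xi {n M S Cn q : ℕ} (J : ℕ) (w : Ix n M S Cn → Fin q) (l : Fin (n + 1))
    (m : Fin M) : (toRnd J w).xi l m = jits J w (l, m) := by
  unfold toRnd jits
  dsimp only
  rw [dif_pos ⟨l.isLt, m.isLt⟩]

/-- The jitters are independent and uniform on `0, …, J` if `J + 1` divides `q`. -/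
theorem av_jits {n M S Cn q : ℕ} {J : ℕ} (hq : 0 < q) (hJ : J + 1 ∣ q)
    (F : (Fin (n + 1) × Fin M → Fin (J + 1)) → ℝ) :
    H731.av (fun w : Ix n M S Cn → Fin q => F (jits J w)) = H731.av F := by
  have : Nonempty (Fin q) := ⟨⟨0, hq⟩⟩
  have h1 := H731.av_restrict (X := Fin q)
    (fun x : Fin (n + 1) × Fin M => (Sum.inl x : Ix n M S Cn)) Sum.inl_injective
    (fun v : Fin (n + 1) × Fin M → Fin q =>
      F (fun x => ⟨(v x : ℕ) % (J + 1), Nat.mod_lt _ (Nat.succ_pos J)⟩))
  have h2 := H731.av_map_pi (ι := Fin (n + 1) × Fin M) (A := fun _ => Fin q)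
    (B := fun _ => Fin (J + 1))
    (fun _ a => ⟨(a : ℕ) % (J + 1), Nat.mod_lt _ (Nat.succ_pos J)⟩) (fun _ => q / (J + 1))
    (fun _ b => H731.card_fibre_mod (Nat.succ_pos J) hJ b) F
  rw [← h2, ← h1]
  rfl

/-- The same with an additional function of the coins which is independent: product form. -/
theorem av_resample_jit {n M S Cn q : ℕ} {J : ℕ} (hq : 0 < q) (hJ : J + 1 ∣ q) (l : ℕ)
    (hl : l < n + 1) (F : (Fin M → Fin (J + 1)) → (Ix n M S Cn → Fin q) → ℝ)
    (hF : ∀ y a w, F y (H132.mix (jitAt n M S Cn l) a w) = F y w) :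
    H731.av (fun w : Ix n M S Cn → Fin q => F (fun m => jits J w (⟨l, hl⟩, m)) w) =
      H731.av (fun w : Ix n M S Cn → Fin q => H731.av (fun y : Fin M → Fin (J + 1) => F y w)) := by
  classical
  have : Nonempty (Fin q) := ⟨⟨0, hq⟩⟩
  rw [← H731.av_resample_set (jitAt n M S Cn l)]
  refine H731.av_congr fun w => ?_
  have e0 : ∀ a : Ix n M S Cn → Fin q,
      (jitAt n M S Cn l).piecewise a w = H132.mix (jitAt n M S Cn l) a w := by
    intro a
    funext i
    unfold H132.mix Finset.piecewise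
    rfl
  have e1 : ∀ a : Ix n M S Cn → Fin q,
      F (fun m => jits J ((jitAt n M S Cn l).piecewise a w) (⟨l, hl⟩, m))
        ((jitAt n M S Cn l).piecewise a w) = F (fun m => jits J a (⟨l, hl⟩, m)) w := by
    intro a
    rw [e0, hF]
    congr 1
    funext m
    have hm : (Sum.inl ((⟨l, hl⟩ : Fin (n + 1)), m) : Ix n M S Cn) ∈ jitAt n M S Cn l :=
      mem_jitAt.mpr ⟨_, rfl, rfl⟩
    apply Fin.ext
    show ((H132.mix (jitAt n M S Cn l) a w (Sum.inl (⟨l, hl⟩, m)) : Fin q) : ℕ) % (J + 1) =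
      (a (Sum.inl (⟨l, hl⟩, m)) : ℕ) % (J + 1)
    rw [H132.mix_mem hm]
  rw [H731.av_congr e1]
  have h1 := av_jits (n := n) (M := M) (S := S) (Cn := Cn) hq hJ
    (fun y : Fin (n + 1) × Fin M → Fin (J + 1) => F (fun m => y (⟨l, hl⟩, m)) w)
  rw [h1]
  exact H731.av_restrict (X := Fin (J + 1)) (fun m : Fin M => ((⟨l, hl⟩ : Fin (n + 1)), m))
    (fun m m' h => (Prod.ext_iff.mp h).2) (fun y => F y w)

end Vale.Agent.P315.H659
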