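import Vale.Agent.P315.H659.Seed
import Vale.Agent.P315.H679.AccDefs

/-!
P315, row C-H3: probability that a machine fails. A machine fails in a region if in one of the
rounds that matter all its sample lanes cost more than the mean plus `d`. The sum over the
machines, the regions and the scales.
-/

set_option autoImplicit false

open Finset

namespace Vale.Agent.P315.H659

open C
open H731 (av av_sum av_mono av_nonneg av_const_mul)

theorem av_eq {A : Type*} [Fintype A] (F : A → ℝ) : H330.av F = av F := rfl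

theorem ind_eq (p : Prop) : H132.ind p = Acc.ind p := by
  by_cases h : p
  · rw [H132.ind_true h, Acc.ind_true h]
  · rw [H132.ind_false h, Acc.ind_false h]

theorem sum_mod (T k : ℕ) (f : ℕ → ℝ) :
    ∑ x ∈ range (k * T), f (x % T) = k * ∑ t ∈ range T, f t := by
  induction k with
  | zero => simp
  | succ k ih =>
    rw [Nat.succ_mul, Finset.sum_range_add, ih]
    have h : ∀ t ∈ range T, f ((k * T + t) % T) = f t := by
      intro t ht
      congr 1
      rw [Nat.mul_comm, Nat.mul_add_mod, Nat.mod_eq_of_lt (Finset.mem_range.1 ht)]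
    rw [Finset.sum_congr rfl h]
    push_cast
    ring

/-- The mean over the words is the mean over the residues. -/
theorem av_mod {q T : ℕ} (hq : 0 < q) (hTq : T ∣ q) (f : ℕ → ℝ) :
    av (fun x : Fin q => f ((x : ℕ) % T)) = (∑ t ∈ range T, f t) / T := by
  obtain ⟨k, rfl⟩ := hTq
  have hk : 0 < k := Nat.pos_of_ne_zero (by rintro rfl; simp at hq)
  have hT : 0 < T := Nat.pos_of_ne_zero (by rintro rfl; simp at hq)
  unfold av
  rw [Fintype.card_fin, Fin.sum_univ_eq_sum_range (fun x => f (x % T)) (T * k),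
    Nat.mul_comm T k, sum_mod]
  push_cast
  have h1 : (k : ℝ) ≠ 0 := by exact_mod_cast hk.ne'
  have h2 : (T : ℝ) ≠ 0 := by exact_mod_cast hT.ne'
  field_simp

/-! ### One machine -/

section Machine

variable {n M S Cn q : ℕ}

/-- A machine fails: in one of the rounds that matter all the sample lanes `t = coin % T`, whose
coins have the numbers `num κ r`, `r < Sm`, cost more than the mean plus `d`. -/
def FailP (Sm T : ℕ) (num : ℕ → ℕ → ℕ) (d : ℝ) (rounds : Finset ℕ) (pc : ℕ → ℕ → ℝ)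
    (coin : ℕ → ℕ) : Prop :=
  ∃ κ ∈ rounds, ∀ r < Sm, (∑ t ∈ range T, pc κ t) / T + d < pc κ (coin (num κ r) % T)

/-- **Failure probability of one machine in one region**, with a weight `X` which does not see the
coins of the machines. -/
theorem fail_one (J : ℕ) (hq : 0 < q) {T : ℕ} (hTq : T ∣ q) {j s : ℕ} (hjn : j < n + 1)
    (hs : s < S) {Sm : ℕ} {num : ℕ → ℕ → ℕ} (hnum : ∀ κ r, r < Sm → num κ r < Cn)
    (hinj : ∀ κ r r', r < Sm → r' < Sm → num κ r = num κ r' → r = r')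
    {pc : (Ix n M S Cn → Fin q) → ℕ → ℕ → ℝ}
    (hpc : ∀ b w, pc (H132.mix (coinAt n M S Cn j s) b w) = pc w)
    (h0 : ∀ w κ t, t < T → 0 ≤ pc w κ t) {B d : ℝ}
    (hB : ∀ w κ, (∑ t ∈ range T, pc w κ t) / T ≤ B) (hd : 0 < d)
    {rounds : (Ix n M S Cn → Fin q) → Finset ℕ}
    (hrounds : ∀ b w, rounds (H132.mix (coinAt n M S Cn j s) b w) = rounds w) {m : ℕ}
    (hm : ∀ w, (rounds w).card ≤ m)
    {X : (Ix n M S Cn → Fin q) → ℝ} (hX0 : ∀ w, 0 ≤ X w)
    (hX : ∀ b w, X (H132.mix (coinAt n M S Cn j s) b w) = X w) :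
    av (fun w => X w * Acc.ind (FailP Sm T num d (rounds w) (pc w) ((toRnd J w).coin j s))) ≤
      (m * (B / (B + d)) ^ Sm) * av X := by
  classical
  have : Nonempty (Fin q) := ⟨⟨0, hq⟩⟩
  have hT : 0 < T := Nat.pos_of_ne_zero (by
    rintro rfl
    exact absurd (Nat.eq_zero_of_zero_dvd hTq) hq.ne')
  have key := H132.lanes_fail (I := Ix n M S Cn) (K := Fin q) (S := Sm) (m := m)
    (coinAt n M S Cn j s)
    (fun κ r => .inr (⟨j, hjn⟩, ⟨s, hs⟩, ⟨num κ r, hnum κ r r.isLt⟩))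
    (fun κ r r' h => by
      simp only [Sum.inr.injEq, Prod.mk.injEq, Fin.mk.injEq, true_and] at h
      exact Fin.ext (hinj κ r r' r.isLt r'.isLt h))
    (fun κ r => mem_coinAt.2 ⟨_, rfl, rfl, rfl⟩)
    (cost := fun w κ x => pc w κ ((x : ℕ) % T))
    (fun b w => by funext κ x; rw [hpc])
    (fun w κ x => h0 w κ _ (Nat.mod_lt _ hT))
    (B := B) (d := d)
    (fun w κ => by rw [av_eq, av_mod hq hTq]; exact hB w κ) hd rounds hrounds hm
    (X := X) hX0 hX
  refine le_trans (le_of_eq ?_) key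
  rw [av_eq]
  refine congrArg av (funext fun w => ?_)
  rw [ind_eq]
  congr 2
  unfold FailP
  refine propext (exists_congr fun κ => and_congr_right fun _ => ?_)
  rw [av_eq, av_mod hq hTq]
  constructor
  · intro h r
    have := h r r.isLt
    unfold toRnd at this
    simpa [hjn, hs, hnum κ r r.isLt] using this
  · intro h r hr
    have := h ⟨r, hr⟩
    unfold toRnd
    simpa [hjn, hs, hnum κ r hr] using this

/-- The same without a weight. -/
theorem fail_prob (J : ℕ) (hq : 0 < q) {T : ℕ} (hTq : T ∣ q) {j s : ℕ} (hjn : j < n + 1)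
    (hs : s < S) {Sm : ℕ} {num : ℕ → ℕ → ℕ} (hnum : ∀ κ r, r < Sm → num κ r < Cn)
    (hinj : ∀ κ r r', r < Sm → r' < Sm → num κ r = num κ r' → r = r')
    {pc : (Ix n M S Cn → Fin q) → ℕ → ℕ → ℝ}
    (hpc : ∀ b w, pc (H132.mix (coinAt n M S Cn j s) b w) = pc w)
    (h0 : ∀ w κ t, t < T → 0 ≤ pc w κ t) {B d : ℝ}
    (hB : ∀ w κ, (∑ t ∈ range T, pc w κ t) / T ≤ B) (hd : 0 < d)
    {rounds : (Ix n M S Cn → Fin q) → Finset ℕ}
    (hrounds : ∀ b w, rounds (H132.mix (coinAt n M S Cn j s) b w) = rounds w) {m : ℕ}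
    (hm : ∀ w, (rounds w).card ≤ m) :
    av (fun w => Acc.ind (FailP Sm T num d (rounds w) (pc w) ((toRnd J w).coin j s))) ≤
      m * (B / (B + d)) ^ Sm := by
  have : Nonempty (Fin q) := ⟨⟨0, hq⟩⟩
  have h := fail_one J hq hTq hjn hs hnum hinj hpc h0 hB hd hrounds hm (X := fun _ => 1)
    (fun _ => zero_le_one) (fun _ _ => rfl)
  simpa [H731.av_const] using h

/-- Own history of the machines of scale `s` in the region `(j, i, a)`. -/
noncomputable def ownHist (J : ℕ) (P : Par) (mc : Mach) (vis hid : Leaf) (j i a s : ℕ)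
    (w : Ix n M S Cn → Fin q) : ℕ → ℕ → ℕ → ℕ → ℕ → ℕ :=
  hist P (toRnd J w) vis hid (rd P mc (toRnd J w) vis hid) j i a s

theorem ownHist_mix (J : ℕ) (P : Par) (mc : Mach) (vis hid : Leaf) {j : ℕ} (hj : 0 < j)
    (i a s : ℕ) (b w : Ix n M S Cn → Fin q) :
    ownHist J P mc vis hid j i a s (H132.mix (coinAt n M S Cn j s) b w) =
      ownHist J P mc vis hid j i a s w := hist_mix J P mc vis hid hj i a s b w

/-- **Failure probability of a finite family of machines in one region.** All data of the machine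
`I` (rounds, costs of the stored paths) are functions of the own history; `F` is any event which
implies that one of the machines fails. -/
theorem fail_region (J : ℕ) (P : Par) (mc : Mach) (vis hid : Leaf) (hq : 0 < q) {T : ℕ}
    (hTq : T ∣ q) {j s : ℕ} (hj : 0 < j) (hjn : j < n + 1) (hs : s < S) (i a : ℕ)
    {ι : Type*} (Q : Finset ι) {Sm : ℕ} {num : ι → ℕ → ℕ → ℕ}
    (hnum : ∀ I ∈ Q, ∀ κ r, r < Sm → num I κ r < Cn)
    (hinj : ∀ I ∈ Q, ∀ κ r r', r < Sm → r' < Sm → num I κ r = num I κ r' → r = r')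
    (pc : ι → (ℕ → ℕ → ℕ → ℕ → ℕ → ℕ) → ℕ → ℕ → ℝ)
    (h0 : ∀ I ∈ Q, ∀ w : Ix n M S Cn → Fin q, ∀ κ t, t < T →
      0 ≤ pc I (ownHist J P mc vis hid j i a s w) κ t) {B d : ℝ}
    (hB : ∀ I ∈ Q, ∀ w : Ix n M S Cn → Fin q, ∀ κ,
      (∑ t ∈ range T, pc I (ownHist J P mc vis hid j i a s w) κ t) / T ≤ B) (hd : 0 < d)
    (rounds : ι → (ℕ → ℕ → ℕ → ℕ → ℕ → ℕ) → Finset ℕ) {m : ℕ}
    (hm : ∀ I ∈ Q, ∀ w : Ix n M S Cn → Fin q,
      (rounds I (ownHist J P mc vis hid j i a s w)).card ≤ m)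
    (F : (Ix n M S Cn → Fin q) → Prop)
    (hF : ∀ w, F w → ∃ I ∈ Q, FailP Sm T (num I) d
      (rounds I (ownHist J P mc vis hid j i a s w))
      (pc I (ownHist J P mc vis hid j i a s w)) ((toRnd J w).coin j s)) :
    av (fun w => Acc.ind (F w)) ≤ Q.card * (m * (B / (B + d)) ^ Sm) := by
  have h1 : ∀ w, Acc.ind (F w) ≤ ∑ I ∈ Q, Acc.ind (FailP Sm T (num I) d
      (rounds I (ownHist J P mc vis hid j i a s w))
      (pc I (ownHist J P mc vis hid j i a s w)) ((toRnd J w).coin j s)) := by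
    intro w
    refine (Acc.ind_mono (hF w)).trans ?_
    have := H132.ind_exists_le Q (fun I => FailP Sm T (num I) d
      (rounds I (ownHist J P mc vis hid j i a s w))
      (pc I (ownHist J P mc vis hid j i a s w)) ((toRnd J w).coin j s))
    simpa only [ind_eq] using this
  refine (av_mono h1).trans ?_
  rw [av_sum]
  refine (Finset.sum_le_card_nsmul Q _ (m * (B / (B + d)) ^ Sm) fun I hI => ?_).trans
    (le_of_eq (nsmul_eq_mul _ _))
  exact fail_prob J hq hTq hjn hs (hnum I hI) (hinj I hI)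
    (fun b w => by rw [ownHist_mix J P mc vis hid hj])
    (h0 I hI) (hB I hI) hd (fun b w => by rw [ownHist_mix J P mc vis hid hj]) (hm I hI)

end Machine

/-! ### The sum over the regions and scales -/

section Total

variable {X Ω : Type} [Fintype X] [Nonempty X] [Fintype Ω]

omit [Nonempty X] in
theorem av_EE (w : X → ℝ) (f : Ω → X → ℝ) :
    av (fun ω => Acc.EE w (f ω)) = Acc.EE w (fun x => av (fun ω => f ω x)) := by
  unfold Acc.EE
  rw [H731.av_div_const]
  congr 1
  rw [av_sum]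
  exact Finset.sum_congr rfl fun x _ => by rw [av_const_mul]

/-- **Sum over the tops, the leaves and the scales of the failure probabilities**: if every top of
scale `s` fails with probability at most `p s`, then the expected total is small. -/
theorem fail_total {w : X → ℝ} (hw : ∀ x, 0 < w x) (Sc : Finset ℕ) (na : ℕ → ℕ)
    (c : ℕ → ℝ) (hc : ∀ s ∈ Sc, 0 ≤ c s) (F : Ω → ℕ → ℕ → X → Prop) (p : ℕ → ℝ)
    (hF : ∀ s ∈ Sc, ∀ a < na s, ∀ x, av (fun ω => Acc.ind (F ω s a x)) ≤ p s) :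
    av (fun ω => ∑ s ∈ Sc, c s * ∑ a ∈ range (na s), Acc.EE w (fun x => Acc.ind (F ω s a x))) ≤
      ∑ s ∈ Sc, c s * (na s * p s) := by
  rw [av_sum]
  refine Finset.sum_le_sum fun s hs => ?_
  rw [av_const_mul, av_sum]
  refine mul_le_mul_of_nonneg_left ?_ (hc s hs)
  refine (Finset.sum_le_card_nsmul (range (na s)) _ (p s) fun a ha => ?_).trans
    (le_of_eq (by rw [card_range, nsmul_eq_mul]))
  rw [av_EE]
  refine (Acc.EE_mono hw (g := fun _ => p s)
    fun x => hF s hs a (Finset.mem_range.1 ha) x).trans ?_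
  rw [Acc.EE_const hw]

/-- The same with a weight `Y` in front of the indicator. -/
theorem fail_total_w {w : X → ℝ} (hw : ∀ x, 0 < w x) (Sc : Finset ℕ) (na : ℕ → ℕ)
    (c : ℕ → ℝ) (hc : ∀ s ∈ Sc, 0 ≤ c s) (F : Ω → ℕ → ℕ → X → Prop) (Y : Ω → ℕ → ℕ → X → ℝ)
    (p : ℕ → ℝ)
    (hF : ∀ s ∈ Sc, ∀ a < na s, ∀ x, av (fun ω => Y ω s a x * Acc.ind (F ω s a x)) ≤
      p s * av (fun ω => Y ω s a x)) :
    av (fun ω => ∑ s ∈ Sc, c s * ∑ a ∈ range (na s),
      Acc.EE w (fun x => Y ω s a x * Acc.ind (F ω s a x))) ≤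
      ∑ s ∈ Sc, c s * (p s * av (fun ω => ∑ a ∈ range (na s), Acc.EE w (Y ω s a))) := by
  rw [av_sum]
  refine Finset.sum_le_sum fun s hs => ?_
  rw [av_const_mul, av_sum]
  refine mul_le_mul_of_nonneg_left ?_ (hc s hs)
  rw [av_sum, Finset.mul_sum]
  refine Finset.sum_le_sum fun a ha => ?_
  rw [av_EE, av_EE, ← Acc.EE_mul_left]
  exact Acc.EE_mono hw fun x => hF s hs a (Finset.mem_range.1 ha) x

end Total

end Vale.Agent.P315.H659
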