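import Vale.Agent.P315.H659.FailTop
import Vale.Agent.P315.H808.QT2

/-!
P315, query theorem (helper659): the sum of the failure probabilities, in the form of the
hypothesis of `H808.qt_value`.
-/

set_option autoImplicit false

open Finset

namespace Vale.Agent.P315.H659

open C
open H731 (av)
open Vale.Agent.P315.Acc (ind)

section

variable {Q : QPar} {vis hid : Leaf} {C : H808.Chain Q.P vis hid Q.n}
  [Nonempty (Fin (Q.P.M ^ Q.n))]

/-- **The hypothesis on the failures in `H808.qt_value`**: if every top of scale `s` fails with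
probability at most `p s`, then the sum is at most `n * ∑ p s`. -/
theorem fail_plug (K : H808.CutPar Q C) {η : ℝ} (hI : Inst Q.P vis hid Q.n η C)
    (Fail : Q.Seed → ℕ → ℕ → Fin (Q.P.M ^ Q.n) → Prop) (p : ℕ → ℝ) (hp : ∀ s, 0 ≤ p s)
    (hF : ∀ s ∈ Icc 1 K.smax, ∀ a < Q.n / 2 ^ s, ∀ x, av (fun w => ind (Fail w s a x)) ≤ p s) :
    av (fun w => ∑ s ∈ Icc 1 K.smax,
      2 ^ s * H295.TA (K.sys hI w) s (fun a x => ind (Fail w s a x))) ≤
      Q.n * ∑ s ∈ Icc 1 K.smax, p s := by
  have key := fail_total (X := Fin (Q.P.M ^ Q.n)) (Ω := Q.Seed)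
    (w := fun x : Fin (Q.P.M ^ Q.n) => C.w x) (fun x => C.w_pos x)
    (Icc 1 K.smax) (fun s => Q.n / 2 ^ s) (fun s => (2 : ℝ) ^ s) (fun s _ => by positivity)
    Fail p (fun s hs a ha x => hF s hs a ha x)
  refine le_trans (le_of_eq ?_) (key.trans ?_)
  · refine congrArg av (funext fun w => ?_)
    rfl
  · rw [Finset.mul_sum]
    refine Finset.sum_le_sum fun s _ => ?_
    rw [← mul_assoc]
    refine mul_le_mul_of_nonneg_right ?_ (hp s)
    have h1 : 2 ^ s * (Q.n / 2 ^ s) ≤ Q.n := Nat.mul_div_le _ _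
    exact_mod_cast h1

end

end Vale.Agent.P315.H659
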