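import Vale.Agent.P315.H423.FailAct
import Vale.Agent.P315.H659.FailPlug
import Vale.Agent.P315.C.Fam
import Vale.Agent.P315.H508.Fails
import Vale.Agent.P315.H784.Budget

/-!
P315, milestone 1 (helper659): probability of the failure event `H423.FailTopA` for the concrete
family `C.fam`, and the failure row of the query theorem.
-/

set_option autoImplicit false

open Finset Filter

namespace Vale.Agent.P315.H659

open C
open H731 (av)
open Vale.Agent.P315.Acc (ind)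
open Vale.Agent.P315.H423 (FailTopA failTopA_prob)

/-- **The failure event of one region** of level `j` with label `a` and one scale `s`, for the
machines of the box geometry with entry `a0` and exit `b0`. -/
def FailRegA (X : H801.MP) (M ℓ μ B j s a : ℕ) (a0 b0 NR : ℕ) (Bd d : ℝ)
    (D : ℕ → ℕ → ℕ → ℕ → ℕ → ℕ) (coin : ℕ → ℕ) : Prop :=
  FailTopA (M ^ 2 ^ s) (2 ^ s) (ℓ * M ^ (j - 2 ^ s)) (X.g s) (X.NL s) (X.Dl s) (X.R s) (X.T s)
    (X.Sh s) X.C μ B a a0 b0 (X.Sm s) NR Bd d D coin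

/-- **Probability of the failure event**, any parameters. -/
theorem failRegA_prob' {n M S Cn q : ℕ} (X : H801.MP) {M' ℓ μ B : ℕ} (J : ℕ) (P : Par)
    (mc : Mach) (vis hid : Leaf) (hq : 0 < q) {a0 b0 NR : ℕ} {Bd d : ℝ} {j s : ℕ}
    (hTq : X.T s ∣ q) (hj : 0 < j) (hjn : j < n + 1) (hs : s < S) (i a : ℕ)
    (hSm : X.Sm s ≤ Cn) (hBd : 0 ≤ Bd) (hd : 0 < d) :
    av (fun w : Ix n M S Cn → Fin q => Acc.ind
      (FailRegA X M' ℓ μ B j s a a0 b0 NR Bd d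
        (ownHist J P mc vis hid j i a s w) ((toRnd J w).coin j s))) ≤
      X.NL s * X.Dl s * X.R s * (((X.R s * X.Dl s : ℕ) : ℝ) * (Bd / (Bd + d)) ^ X.Sm s) :=
  failTopA_prob J P mc vis hid hq hTq hj hjn hs i a hSm hBd hd

/-- The bound of the failure probability of one region and scale for the family. -/
noncomputable def pA (Cb : ℝ) (m s : ℕ) : ℝ :=
  (famMP m).NL s * (famMP m).Dl s * (famMP m).R s * (((famMP m).R s * (famMP m).Dl s : ℕ) *
    (Cb / (Cb + Par.dlm m s)) ^ (famMP m).Sm s)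

theorem dlmA_pos (m s : ℕ) : 0 < Par.dlm m s := by unfold Par.dlm; positivity

theorem pA_nonneg {Cb : ℝ} (hCb : 0 ≤ Cb) (m s : ℕ) : 0 ≤ pA Cb m s := by
  unfold pA
  have := dlmA_pos m s
  positivity

/-- **Probability of the failure event** for the family, `Bd * dlm ≤ Cb * d`. -/
theorem failRegA_prob {m k cd n S ℓ μ B : ℕ} (vis hid : Leaf) {Cb : ℝ}
    (hCb : 0 < Cb) {a0 b0 NR : ℕ} {Bd d : ℝ} {j s : ℕ} (hs : s ≤ S) (hj : 0 < j) (hjn : j ≤ n)
    (i a : ℕ) (hBd : 0 ≤ Bd) (hd : 0 < d) (hr : Bd * Par.dlm m s ≤ Cb * d) :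
    av (fun w : (fam m k cd n S ℓ μ B).Seed => Acc.ind
      (FailRegA (famMP m) (2 ^ (20 * m)) ℓ μ B j s a a0 b0 NR Bd d
        (hist (fam m k cd n S ℓ μ B).P (toRnd (fam m k cd n S ℓ μ B).P.J w) vis hid
          (rd (fam m k cd n S ℓ μ B).P (fam m k cd n S ℓ μ B).mc
            (toRnd (fam m k cd n S ℓ μ B).P.J w) vis hid) j i a s)
        ((toRnd (fam m k cd n S ℓ μ B).P.J w).coin j s))) ≤ pA Cb m s := by
  have h1 := failRegA_prob' (n := n) (M := (fam m k cd n S ℓ μ B).P.M)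
    (S := (fam m k cd n S ℓ μ B).P.S)
    (Cn := (fam m k cd n S ℓ μ B).Cn) (q := (fam m k cd n S ℓ μ B).q)
    (famMP m) (M' := 2 ^ (20 * m)) (ℓ := ℓ) (μ := μ) (B := B) (a0 := a0) (b0 := b0) (NR := NR)
    (fam m k cd n S ℓ μ B).P.J (fam m k cd n S ℓ μ B).P (fam m k cd n S ℓ μ B).mc vis hid
    fam_q_pos (fam_T_dvd hs) hj (Nat.lt_succ_of_le hjn) (Nat.lt_succ_of_le hs) i a
    (fam_Sm_le hs) hBd hd
  refine h1.trans ?_
  have hdl := dlmA_pos m s
  have h2 : Bd / (Bd + d) ≤ Cb / (Cb + Par.dlm m s) := by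
    rw [div_le_div_iff₀ (by linarith) (by linarith)]
    nlinarith
  have h3 : (Bd / (Bd + d)) ^ (famMP m).Sm s ≤
      (Cb / (Cb + Par.dlm m s)) ^ (famMP m).Sm s :=
    pow_le_pow_left₀ (by positivity) h2 _
  unfold pA
  gcongr

/-- **The sum of the failure probabilities is small.** -/
theorem pA_sum {Cb ε : ℝ} (hCb : 1 ≤ Cb) (hε : 0 < ε) : ∀ᶠ m : ℕ in atTop, ∀ T : Finset ℕ,
    ∑ s ∈ T, pA Cb m s ≤ ε := by
  filter_upwards [H508.fails_sum (20 * 2 ^ 10) 512 5 2 hCb hε (by positivity) (by positivity)]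
    with m hm T
  refine le_trans (le_of_eq (sum_congr rfl fun s _ => ?_)) (hm T)
  have e1 : pA Cb m s = (20 * (m : ℝ) * 2 ^ s) * (16 ^ s * (m : ℝ) ^ 2) ^ 2 *
      (2 ^ (m * 2 ^ s + 5)) ^ 2 * (Cb / (Cb + Par.dlm m s)) ^ (2 ^ (4 * (m * 2 ^ s))) := by
    unfold pA famMP
    simp only
    rw [show 4 * m * 2 ^ s = 4 * (m * 2 ^ s) by ring]
    push_cast
    ring
  have e2 : ((2 : ℝ) ^ (m * 2 ^ s + 5)) ^ 2 = 2 ^ 10 * 2 ^ (2 * (m * 2 ^ s)) := by
    rw [← pow_mul, ← pow_add]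
    congr 1
    ring
  have e3 : ((16 : ℝ) ^ s * (m : ℝ) ^ 2) ^ 2 = 256 ^ s * (m : ℝ) ^ 4 := by
    rw [mul_pow, ← pow_mul, ← pow_mul, mul_comm s 2, pow_mul]
    norm_num
  have e4 : (512 : ℝ) ^ s = 256 ^ s * 2 ^ s := by rw [← mul_pow]; norm_num
  have e5 : H508.dl m s = Par.dlm m s := rfl
  rw [e1, e2, e3, e4, e5]
  ring

/-- **The failure row with the numbers of the family.** -/
theorem fail_row1 {Cb ε : ℝ} (hCb : 1 ≤ Cb) (hε : 0 < ε) : ∀ᶠ m : ℕ in atTop,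
    ∀ (Q : QPar) (vis hid : Leaf) (C : H808.Chain Q.P vis hid Q.n)
      [Nonempty (Fin (Q.P.M ^ Q.n))] (K : H808.CutPar Q C) (η : ℝ)
      (hI : Inst Q.P vis hid Q.n η C)
      (Fail : Q.Seed → ℕ → ℕ → Fin (Q.P.M ^ Q.n) → Prop),
      (∀ s ∈ Icc 1 K.smax, ∀ a < Q.n / 2 ^ s, ∀ x,
        av (fun w => ind (Fail w s a x)) ≤ pA Cb m s) →
      av (fun w => ∑ s ∈ Icc 1 K.smax,
        2 ^ s * H295.TA (K.sys hI w) s (fun a x => ind (Fail w s a x))) ≤ ε * Q.n := by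
  filter_upwards [pA_sum hCb hε] with m hm
  intro Q vis hid C _ K η hI Fail hF
  refine (fail_plug K hI Fail (pA Cb m) (pA_nonneg (by linarith) m) hF).trans ?_
  rw [mul_comm ε]
  exact mul_le_mul_of_nonneg_left (hm _) (Nat.cast_nonneg _)

end Vale.Agent.P315.H659
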