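import Vale.Agent.P315.H659.FailTopW
import Vale.Agent.P315.H155.Fam2
import Vale.Agent.P315.H508.Fails
import Vale.Agent.P315.H784.Budget
import Vale.Agent.P315.H846.QTM

/-!
P315, milestone 2 (helper659): the failure event of one region and one scale for the machines
`H155.machW`, its probability for the family `H155.fam2`, and the sum of the failures.
-/

set_option autoImplicit false

open Finset Filter

namespace Vale.Agent.P315.H659

open C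
open H731 (av)
open Vale.Agent.P315.Acc (ind)
open Vale.Agent.P315.H155 (MPW famMPW fam2)
open Vale.Agent.P315.H763 (labL labL_ne)
open Vale.Agent.P315.H95 (cl bx wd)

/-- **The failure event of one region** of level `j` with label `a` and one scale `s`, for the
machines with entry `a0` and exit `b0`; `D` = history of the region, `coin` = its coins. -/
def FailReg (X : MPW) (LB : ℕ → ℕ → List ℕ) (hLB : ∀ s a, LB s a ≠ []) (m μ B w0 j s a : ℕ)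
    (a0 b0 NR : ℕ) (Bd d : ℝ) (D : ℕ → ℕ → ℕ → ℕ → ℕ → ℕ) (coin : ℕ → ℕ) : Prop :=
  FailTopWA ((2 ^ m) ^ 2 ^ s) (2 ^ s) (m * 2 ^ s) (wd m w0 (j - 2 ^ s) (cl a)) (X.g s) (X.NL s)
    (X.Dl s) (X.R s) (X.T s) (X.Sh s) (X.Rh s) X.C μ B
    (bx a * ((2 ^ m) ^ 2 ^ s * wd m w0 (j - 2 ^ s) (cl a))) (cl a) (LB s a) (hLB s a)
    a0 b0 (X.Sm s) NR Bd d D coin

/-- **Probability of the failure event**, any parameters. -/
theorem failReg_prob' {n M S Cn q : ℕ} (X : MPW) {LB : ℕ → ℕ → List ℕ}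
    (hLB : ∀ s a, LB s a ≠ []) {m μ B w0 : ℕ} (J : ℕ) (P : Par) (mc : Mach) (vis hid : Leaf)
    (hq : 0 < q) {a0 b0 NR : ℕ} {Bd d : ℝ} {j s : ℕ} (hTq : X.T s ∣ q)
    (hj : 0 < j) (hjn : j < n + 1) (hs : s < S) (i a : ℕ) (hSm : X.Sm s ≤ Cn) (hBd : 0 ≤ Bd)
    (hd : 0 < d) :
    av (fun w : Ix n M S Cn → Fin q => Acc.ind
      (FailReg X LB hLB m μ B w0 j s a a0 b0 NR Bd d
        (ownHist J P mc vis hid j i a s w) ((toRnd J w).coin j s))) ≤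
      X.NL s * X.Dl s * X.R s * (X.R s * X.Dl s * (Bd / (Bd + d)) ^ X.Sm s) :=
  failTopWA_prob (hLB s a) J P mc vis hid hq hTq hj hjn hs i a hSm hBd hd

/-- The bound of the failure probability of one region and scale for the family. -/
noncomputable def pF (Cb : ℝ) (m s : ℕ) : ℝ :=
  (famMPW m).NL s * (famMPW m).Dl s * (famMPW m).R s * ((famMPW m).R s * (famMPW m).Dl s *
    (Cb / (Cb + Par.dlm m s)) ^ (famMPW m).Sm s)

theorem dlm_pos (m s : ℕ) : 0 < Par.dlm m s := by unfold Par.dlm; positivity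

theorem pF_nonneg {Cb : ℝ} (hCb : 0 ≤ Cb) (m s : ℕ) : 0 ≤ pF Cb m s := by
  unfold pF
  have := dlm_pos m s
  positivity

/-- **Probability of the failure event** for the family, `Bd * dlm ≤ Cb * d`. -/
theorem failReg_prob {m k cd D1 n S ℓ μ B w0 Kc κr : ℕ} (vis hid : Leaf) {Cb : ℝ}
    (hCb : 0 < Cb) {a0 b0 NR : ℕ} {Bd d : ℝ} {j s : ℕ} (hs : s ≤ S) (hj : 0 < j) (hjn : j ≤ n)
    (i a : ℕ) (hBd : 0 ≤ Bd) (hd : 0 < d) (hr : Bd * Par.dlm m s ≤ Cb * d) :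
    av (fun w : (fam2 m k cd D1 n S ℓ μ B w0 Kc κr).Seed => Acc.ind
      (FailReg (famMPW m) (labL (20 * m) (Kc + 3)) (fun _ _ => labL_ne _ _ _ _) (20 * m) μ B w0
        j s a a0 b0 NR Bd d
        (hist (fam2 m k cd D1 n S ℓ μ B w0 Kc κr).P
          (toRnd (fam2 m k cd D1 n S ℓ μ B w0 Kc κr).P.J w) vis hid
          (rd (fam2 m k cd D1 n S ℓ μ B w0 Kc κr).P (fam2 m k cd D1 n S ℓ μ B w0 Kc κr).mc
            (toRnd (fam2 m k cd D1 n S ℓ μ B w0 Kc κr).P.J w) vis hid) j i a s)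
        ((toRnd (fam2 m k cd D1 n S ℓ μ B w0 Kc κr).P.J w).coin j s))) ≤ pF Cb m s := by
  have h1 := failReg_prob' (n := n) (M := (fam2 m k cd D1 n S ℓ μ B w0 Kc κr).P.M)
    (S := (fam2 m k cd D1 n S ℓ μ B w0 Kc κr).P.S)
    (Cn := (fam2 m k cd D1 n S ℓ μ B w0 Kc κr).Cn) (q := (fam2 m k cd D1 n S ℓ μ B w0 Kc κr).q)
    (famMPW m) (LB := labL (20 * m) (Kc + 3)) (fun _ _ => labL_ne _ _ _ _) (m := 20 * m)
    (μ := μ) (B := B) (w0 := w0) (a0 := a0) (b0 := b0) (NR := NR)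
    (fam2 m k cd D1 n S ℓ μ B w0 Kc κr).P.J (fam2 m k cd D1 n S ℓ μ B w0 Kc κr).P
    (fam2 m k cd D1 n S ℓ μ B w0 Kc κr).mc vis hid H155.fam2_q_pos (H155.fam2_T_dvd hs) hj
    (Nat.lt_succ_of_le hjn) (by rw [H155.fam2_S]; omega) i a (H155.fam2_Sm_le hs) hBd hd
  refine h1.trans ?_
  have hdl := dlm_pos m s
  have h2 : Bd / (Bd + d) ≤ Cb / (Cb + Par.dlm m s) := by
    rw [div_le_div_iff₀ (by linarith) (by linarith)]
    nlinarith
  have h3 : (Bd / (Bd + d)) ^ (famMPW m).Sm s ≤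
      (Cb / (Cb + Par.dlm m s)) ^ (famMPW m).Sm s :=
    pow_le_pow_left₀ (by positivity) h2 _
  unfold pF
  gcongr

/-- **The sum of the failure probabilities is small.** -/
theorem pF_sum {Cb ε : ℝ} (hCb : 1 ≤ Cb) (hε : 0 < ε) : ∀ᶠ m : ℕ in atTop, ∀ T : Finset ℕ,
    ∑ s ∈ T, pF Cb m s ≤ ε := by
  filter_upwards [H508.fails_sum (7 * 2 ^ 16) 512 5 2 hCb hε (by positivity) (by positivity),
    eventually_ge_atTop 1] with m hm hm1 T
  refine le_trans (sum_le_sum fun s _ => ?_) (hm T)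
  have hm1' : (1 : ℝ) ≤ m := by exact_mod_cast hm1
  have h2s : (1 : ℝ) ≤ 2 ^ s := one_le_pow₀ (by norm_num)
  have hp : 0 ≤ (Cb / (Cb + Par.dlm m s)) ^ (2 ^ (4 * (m * 2 ^ s))) := by
    have := dlm_pos m s
    positivity
  have e1 : pF Cb m s = ((m : ℝ) * 2 ^ s + 6) * (16 ^ s * (m : ℝ) ^ 2) ^ 2 *
      (2 ^ (m * 2 ^ s + 8)) ^ 2 * (Cb / (Cb + Par.dlm m s)) ^ (2 ^ (4 * (m * 2 ^ s))) := by
    unfold pF famMPW
    simp only
    rw [show 4 * m * 2 ^ s = 4 * (m * 2 ^ s) by ring]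
    push_cast
    ring
  have e2 : ((2 : ℝ) ^ (m * 2 ^ s + 8)) ^ 2 = 2 ^ 16 * 2 ^ (2 * (m * 2 ^ s)) := by
    rw [← pow_mul, ← pow_add]
    congr 1
    ring
  have e3 : ((16 : ℝ) ^ s * (m : ℝ) ^ 2) ^ 2 = 256 ^ s * (m : ℝ) ^ 4 := by
    rw [mul_pow, ← pow_mul, ← pow_mul, mul_comm s 2, pow_mul]
    norm_num
  have e4 : (512 : ℝ) ^ s = 256 ^ s * 2 ^ s := by rw [← mul_pow]; norm_num
  have h6 : (m : ℝ) * 2 ^ s + 6 ≤ 7 * (m * 2 ^ s) := by nlinarith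
  have e5 : H508.dl m s = Par.dlm m s := rfl
  rw [e1, e2, e3, e4, e5]
  calc ((m : ℝ) * 2 ^ s + 6) * (256 ^ s * (m : ℝ) ^ 4) * (2 ^ 16 * 2 ^ (2 * (m * 2 ^ s))) *
        (Cb / (Cb + Par.dlm m s)) ^ (2 ^ (4 * (m * 2 ^ s)))
      ≤ (7 * ((m : ℝ) * 2 ^ s)) * (256 ^ s * (m : ℝ) ^ 4) * (2 ^ 16 * 2 ^ (2 * (m * 2 ^ s))) *
        (Cb / (Cb + Par.dlm m s)) ^ (2 ^ (4 * (m * 2 ^ s))) := by
        gcongr
    _ = _ := by ring

section row

variable {Q : QPar} {vis hid : Leaf} {C : H808.Chain Q.P vis hid Q.n}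
  [Nonempty (Fin (Q.P.M ^ Q.n))]

/-- **The failure row**: if every top of scale `s` fails with probability at most `p s`, then the
sum is at most `n * ∑ p s`. -/
theorem fail_plug2 (K : H846.Cut2 Q C) (Fail : Q.Seed → ℕ → ℕ → Fin (Q.P.M ^ Q.n) → Prop)
    (p : ℕ → ℝ) (hp : ∀ s, 0 ≤ p s)
    (hF : ∀ s ∈ Icc 1 K.smax, ∀ a < Q.n / 2 ^ s, ∀ x, av (fun w => ind (Fail w s a x)) ≤ p s) :
    av (fun w => ∑ s ∈ Icc 1 K.smax,
      2 ^ s * H295.TA (K.sys w) s (fun a x => ind (Fail w s a x))) ≤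
      Q.n * ∑ s ∈ Icc 1 K.smax, p s := by
  have key := fail_total (X := Fin (Q.P.M ^ Q.n)) (Ω := Q.Seed)
    (w := fun x : Fin (Q.P.M ^ Q.n) => C.w x) (fun x => C.w_pos x)
    (Icc 1 K.smax) (fun s => Q.n / 2 ^ s) (fun s => (2 : ℝ) ^ s) (fun s _ => by positivity)
    Fail p (fun s hs a ha x => hF s hs a ha x)
  refine le_trans (le_of_eq ?_) (key.trans ?_)
  · refine congrArg av (funext fun w => ?_)
    rfl
  · rw [Finset.mul_sum]
    refine Finset.sum_le_sum fun s _ => ?_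
    rw [← mul_assoc]
    refine mul_le_mul_of_nonneg_right ?_ (hp s)
    have h1 : 2 ^ s * (Q.n / 2 ^ s) ≤ Q.n := Nat.mul_div_le _ _
    exact_mod_cast h1

/-- The failure row with the numbers of the family. -/
theorem fail_row2 {Cb ε : ℝ} (hCb : 1 ≤ Cb) (hε : 0 < ε) : ∀ᶠ m : ℕ in atTop,
    ∀ (Q : QPar) (vis hid : Leaf) (C : H808.Chain Q.P vis hid Q.n)
      [Nonempty (Fin (Q.P.M ^ Q.n))] (K : H846.Cut2 Q C)
      (Fail : Q.Seed → ℕ → ℕ → Fin (Q.P.M ^ Q.n) → Prop),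
      (∀ s ∈ Icc 1 K.smax, ∀ a < Q.n / 2 ^ s, ∀ x,
        av (fun w => ind (Fail w s a x)) ≤ pF Cb m s) →
      av (fun w => ∑ s ∈ Icc 1 K.smax,
        2 ^ s * H295.TA (K.sys w) s (fun a x => ind (Fail w s a x))) ≤ ε * Q.n := by
  filter_upwards [pF_sum hCb hε] with m hm
  intro Q vis hid C _ K Fail hF
  refine (fail_plug2 K Fail (pF Cb m) (pF_nonneg (by linarith) m) hF).trans ?_
  rw [mul_comm ε]
  exact mul_le_mul_of_nonneg_left (hm _) (Nat.cast_nonneg _)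

end row

end Vale.Agent.P315.H659
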