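import Vale.Agent.P315.H659.Fail
import Vale.Agent.P315.H801.Mach

/-!
P315, row C-H3 (helper659): the failure event of the concrete machines of one region and one
scale, and its probability.
-/

set_option autoImplicit false

open Finset

namespace Vale.Agent.P315.H659

open C
open H731 (av)
open H220 (encQ)

/-- Cost of the stored path number `n` of machine `q` in round `κ`, at the costs of the round
`κ + h`. -/
noncomputable def pcT (K h Tu g NL Dl R T Sh Cc μ B a q : ℕ)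
    (D : ℕ → ℕ → ℕ → ℕ → ℕ → ℕ) (κ n : ℕ) : ℝ :=
  ∑ i : Fin (K + 2), (H801.nodeD K Tu g μ B a D (κ + h) i
    (H801.pk K h Tu g NL Dl R T Sh Cc μ B q κ a D n i).1
    (H801.pk K h Tu g NL Dl R T Sh Cc μ B q κ a D n i).2 : ℝ)

open Classical in
/-- The same, replaced by `0` in the rounds in which the mean is larger than `Bd`. -/
noncomputable def pcB (K h Tu g NL Dl R T Sh Cc μ B a : ℕ) (Bd : ℝ) (q : ℕ)
    (D : ℕ → ℕ → ℕ → ℕ → ℕ → ℕ) (κ n : ℕ) : ℝ :=
  if (∑ n' ∈ range T, pcT K h Tu g NL Dl R T Sh Cc μ B a q D κ n') / T ≤ Bd then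
    pcT K h Tu g NL Dl R T Sh Cc μ B a q D κ n else 0

/-- **The failure event** of the machines with entry `a0` and exit `b0`: for one of them and one
of the rounds `κ < NR`, all samples cost more than the mean plus `d`. -/
def FailTop (K h Tu g NL Dl R T Sh Cc μ B a a0 b0 Sm NR : ℕ) (Bd d : ℝ)
    (D : ℕ → ℕ → ℕ → ℕ → ℕ → ℕ) (coin : ℕ → ℕ) : Prop :=
  ∃ l < NL, ∃ o < Dl, ∃ r < R, FailP Sm T (fun _ r' => r') d (range NR)
    (pcB K h Tu g NL Dl R T Sh Cc μ B a Bd (encQ g NL Dl R a0 b0 l o r 0) D) coin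

section

variable {K h Tu g NL Dl R T Sh Cc μ B a a0 b0 Sm NR : ℕ} {Bd d : ℝ}

theorem pcT_nonneg (q : ℕ) (D : ℕ → ℕ → ℕ → ℕ → ℕ → ℕ) (κ n : ℕ) :
    0 ≤ pcT K h Tu g NL Dl R T Sh Cc μ B a q D κ n :=
  Finset.sum_nonneg fun _ _ => Nat.cast_nonneg _

theorem pcB_nonneg (q : ℕ) (D : ℕ → ℕ → ℕ → ℕ → ℕ → ℕ) (κ n : ℕ) :
    0 ≤ pcB K h Tu g NL Dl R T Sh Cc μ B a Bd q D κ n := by
  unfold pcB
  split_ifs
  · exact pcT_nonneg q D κ n
  · exact le_rfl

theorem pcB_eq {q : ℕ} {D : ℕ → ℕ → ℕ → ℕ → ℕ → ℕ} {κ : ℕ}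
    (hle : (∑ n' ∈ range T, pcT K h Tu g NL Dl R T Sh Cc μ B a q D κ n') / T ≤ Bd) :
    pcB K h Tu g NL Dl R T Sh Cc μ B a Bd q D κ =
      pcT K h Tu g NL Dl R T Sh Cc μ B a q D κ := by
  funext n
  unfold pcB
  rw [if_pos hle]

theorem pcB_mean (hBd : 0 ≤ Bd) (q : ℕ) (D : ℕ → ℕ → ℕ → ℕ → ℕ → ℕ) (κ : ℕ) :
    (∑ n ∈ range T, pcB K h Tu g NL Dl R T Sh Cc μ B a Bd q D κ n) / T ≤ Bd := by
  by_cases hle : (∑ n' ∈ range T, pcT K h Tu g NL Dl R T Sh Cc μ B a q D κ n') / T ≤ Bd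
  · rw [pcB_eq hle]; exact hle
  · have h1 : ∀ n ∈ range T, pcB K h Tu g NL Dl R T Sh Cc μ B a Bd q D κ n = 0 := by
      intro n _
      unfold pcB
      rw [if_neg hle]
    rw [Finset.sum_congr rfl h1]
    simpa using hBd

/-- **A good sample.** Outside the failure event every machine has, in every round `κ < NR` in
which the mean cost is at most `Bd`, a sample `sm` whose stored path costs at most the mean plus
`d`. -/
theorem exists_sample {D : ℕ → ℕ → ℕ → ℕ → ℕ → ℕ} {coin : ℕ → ℕ}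
    (hF : ¬ FailTop K h Tu g NL Dl R T Sh Cc μ B a a0 b0 Sm NR Bd d D coin) {l o r κ : ℕ}
    (hl : l < NL) (ho : o < Dl) (hr : r < R) (hκ : κ < NR)
    (hle : (∑ n ∈ range T, pcT K h Tu g NL Dl R T Sh Cc μ B a
      (encQ g NL Dl R a0 b0 l o r 0) D κ n) / T ≤ Bd) :
    ∃ sm < Sm, pcT K h Tu g NL Dl R T Sh Cc μ B a (encQ g NL Dl R a0 b0 l o r 0) D κ
        (coin sm % T) ≤
      (∑ n ∈ range T, pcT K h Tu g NL Dl R T Sh Cc μ B a
        (encQ g NL Dl R a0 b0 l o r 0) D κ n) / T + d := by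
  by_contra hcon
  push Not at hcon
  refine hF ⟨l, hl, o, ho, r, hr, κ, Finset.mem_range.2 hκ, fun sm hsm => ?_⟩
  rw [pcB_eq hle]
  exact hcon sm hsm

end

section prob

variable {n M S Cn q : ℕ}

/-- **Probability of the failure event** of one region and one scale. -/
theorem failTop_prob (J : ℕ) (P : Par) (mc : Mach) (vis hid : Leaf) (hq : 0 < q)
    {K h Tu g NL Dl R T Sh Cc μ B a' a0 b0 Sm NR : ℕ} {Bd d : ℝ} (hTq : T ∣ q) {j s : ℕ}
    (hj : 0 < j) (hjn : j < n + 1) (hs : s < S) (i a : ℕ) (hSm : Sm ≤ Cn) (hBd : 0 ≤ Bd)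
    (hd : 0 < d) :
    av (fun w : Ix n M S Cn → Fin q => Acc.ind
      (FailTop K h Tu g NL Dl R T Sh Cc μ B a' a0 b0 Sm NR Bd d
        (ownHist J P mc vis hid j i a s w) ((toRnd J w).coin j s))) ≤
      NL * Dl * R * (NR * (Bd / (Bd + d)) ^ Sm) := by
  have key := fail_region (n := n) (M := M) (S := S) (Cn := Cn) J P mc vis hid hq hTq hj hjn hs i a
    (range NL ×ˢ (range Dl ×ˢ range R)) (Sm := Sm) (num := fun _ _ r => r)
    (fun _ _ _ r hr => lt_of_lt_of_le hr hSm) (fun _ _ _ _ _ _ _ h => h)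
    (fun I D κ t => pcB K h Tu g NL Dl R T Sh Cc μ B a' Bd
      (encQ g NL Dl R a0 b0 I.1 I.2.1 I.2.2 0) D κ t)
    (fun I _ w κ t _ => pcB_nonneg _ _ _ _) (B := Bd) (d := d)
    (fun I _ w κ => pcB_mean hBd _ _ _) hd (fun _ _ => range NR) (m := NR)
    (fun _ _ _ => by rw [card_range])
    (fun w => FailTop K h Tu g NL Dl R T Sh Cc μ B a' a0 b0 Sm NR Bd d
        (ownHist J P mc vis hid j i a s w) ((toRnd J w).coin j s))
    (fun w hw => by
      obtain ⟨l, hl, o, ho, r, hr, hF⟩ := hw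
      exact ⟨(l, o, r), by simp [hl, ho, hr], hF⟩)
  refine key.trans (le_of_eq ?_)
  rw [Finset.card_product, Finset.card_product, card_range, card_range, card_range]
  push_cast
  ring

end prob

end Vale.Agent.P315.H659
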