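import Vale.Agent.P315.H659.RoundsA
import Vale.Agent.P315.H763.CertW
import Vale.Agent.P315.H220.WD

/-!
P315, milestone 2 (helper659): the failure event of the machines with edge weights, in the form
with a baseline: the cost of a stored path minus the distance of its two ends.
-/

set_option autoImplicit false

open Finset

namespace Vale.Agent.P315.H659

open C
open H731 (av)
open H220 (encQ qA qB)

section W

variable {K h wm Z g NL Dl R T Sh Rh Cc μ B lo ca : ℕ} {LB : List ℕ}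

/-- **Cost of the stored path number `n`** of machine `q` in round `κ`, at the costs of the round
`κ + h`, minus the distance of its ends in that round. -/
noncomputable def pcTW (K h wm Z g NL Dl R T Sh Rh Cc μ B lo ca : ℕ) (LB : List ℕ)
    (hLB : LB ≠ []) (q : ℕ) (D : ℕ → ℕ → ℕ → ℕ → ℕ → ℕ) (κ n : ℕ) : ℝ :=
  (∑ i : Fin (K + 2), (H155.nodeW K Z g μ B lo LB D (κ + h) i
    (H155.pkW K h wm Z g NL Dl R T Sh Rh Cc μ B lo q κ ca LB hLB D n i).1
    (H155.pkW K h wm Z g NL Dl R T Sh Rh Cc μ B lo q κ ca LB hLB D n i).2 : ℝ)) -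
  (H801.WD (K + 2) (H155.pW K g LB) (qA (2 * g) q * K) (min (qB (2 * g) q) (2 * g) * K)
    (H155.nodeW K Z g μ B lo LB D (κ + h)) : ℝ)

open Classical in
/-- The same, replaced by `0` if the mean over the stored paths is larger than `Bd`. -/
noncomputable def pcBW (K h wm Z g NL Dl R T Sh Rh Cc μ B lo ca : ℕ) (LB : List ℕ)
    (hLB : LB ≠ []) (Bd : ℝ) (q : ℕ) (D : ℕ → ℕ → ℕ → ℕ → ℕ → ℕ) (κ n : ℕ) : ℝ :=
  if (∑ n' ∈ range T, pcTW K h wm Z g NL Dl R T Sh Rh Cc μ B lo ca LB hLB q D κ n') / T ≤ Bd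
  then pcTW K h wm Z g NL Dl R T Sh Rh Cc μ B lo ca LB hLB q D κ n else 0

/-- **The failure event** of the machines with entry `a0` and exit `b0`. -/
def FailTopW (K h wm Z g NL Dl R T Sh Rh Cc μ B lo ca : ℕ) (LB : List ℕ) (hLB : LB ≠ [])
    (a0 b0 Sm NR : ℕ) (Bd d : ℝ) (D : ℕ → ℕ → ℕ → ℕ → ℕ → ℕ) (coin : ℕ → ℕ) : Prop :=
  ∃ l < NL, ∃ o < Dl, ∃ r < R, FailP Sm T (fun _ r' => r') d (range NR)
    (pcBW K h wm Z g NL Dl R T Sh Rh Cc μ B lo ca LB hLB Bd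
      (encQ (2 * g) NL Dl R a0 b0 l o r 0) D) coin

/-- The cost of a stored path is at least the distance of its ends. -/
theorem pcTW_nonneg (hLB : LB ≠ []) (q : ℕ) (D : ℕ → ℕ → ℕ → ℕ → ℕ → ℕ) (κ : ℕ) {n : ℕ}
    (hn : n < T) : 0 ≤ pcTW K h wm Z g NL Dl R T Sh Rh Cc μ B lo ca LB hLB q D κ n := by
  obtain ⟨f, f0, fK, fj, fe⟩ := H763.pkW_nodes (K := K) (h := h) (wm := wm) (Z := Z) (g := g)
    (NL := NL) (Dl := Dl) (R := R) (Sh := Sh) (Rh := Rh) (Cc := Cc) (μ := μ) (B := B) (lo := lo)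
    (q := q) (κ := κ) (ca := ca) hLB (D := D) hn
  have h1 := (H220.wd_spec (H155.nodeW K Z g μ B lo LB D (κ + h)) (Nat.succ_pos (K + 1))
    (H155.entryW_lt (K := K) (g := g) hLB q) (H155.exitW_lt (K := K) (g := g) hLB q)).2 f f0 fK fj
  unfold pcTW
  rw [sub_nonneg]
  have h2 : (∑ i : Fin (K + 2), (H155.nodeW K Z g μ B lo LB D (κ + h) i
      (H155.pkW K h wm Z g NL Dl R T Sh Rh Cc μ B lo q κ ca LB hLB D n i).1
      (H155.pkW K h wm Z g NL Dl R T Sh Rh Cc μ B lo q κ ca LB hLB D n i).2 : ℝ)) =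
      ((∑ i ∈ range (K + 2), H155.nodeW K Z g μ B lo LB D (κ + h) i (f i) (f (i + 1)) : ℕ) : ℝ)
      := by
    rw [← Fin.sum_univ_eq_sum_range (fun i => H155.nodeW K Z g μ B lo LB D (κ + h) i (f i)
      (f (i + 1)))]
    push_cast
    exact Finset.sum_congr rfl fun i _ => by rw [(fe i).1, (fe i).2]
  rw [h2]
  exact_mod_cast h1

/-- The mean over the stored paths is the value of the row law minus the distance. -/
theorem pcTW_mean (hLB : LB ≠ []) (hT : 0 < T) (q : ℕ) (D : ℕ → ℕ → ℕ → ℕ → ℕ → ℕ) (κ : ℕ) :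
    (∑ n ∈ range T, pcTW K h wm Z g NL Dl R T Sh Rh Cc μ B lo ca LB hLB q D κ n) / T =
      H782.val (H801.Dr (K + 2) (H155.pW K g LB) (H155.nodeW K Z g μ B lo LB D) (κ + h))
        (H782.xx (H155.pkW K h wm Z g NL Dl R T Sh Rh Cc μ B lo q κ ca LB hLB D) T) -
      (H801.WD (K + 2) (H155.pW K g LB) (qA (2 * g) q * K) (min (qB (2 * g) q) (2 * g) * K)
        (H155.nodeW K Z g μ B lo LB D (κ + h)) : ℝ) := by
  have hT' : (T : ℝ) ≠ 0 := by exact_mod_cast hT.ne'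
  have h1 := mean_eq_val hT
    (H801.Dr (K + 2) (H155.pW K g LB) (H155.nodeW K Z g μ B lo LB D) (κ + h))
    (H155.pkW K h wm Z g NL Dl R T Sh Rh Cc μ B lo q κ ca LB hLB D)
  rw [← h1]
  unfold pcTW
  rw [Finset.sum_sub_distrib, Finset.sum_const, card_range, nsmul_eq_mul, sub_div,
    mul_div_cancel_left₀ _ hT']
  rfl

theorem pcBW_eq_cutB (hLB : LB ≠ []) (Bd : ℝ) (q : ℕ) (D : ℕ → ℕ → ℕ → ℕ → ℕ → ℕ) (κ : ℕ) :
    pcBW K h wm Z g NL Dl R T Sh Rh Cc μ B lo ca LB hLB Bd q D κ =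
      cutB T Bd (pcTW K h wm Z g NL Dl R T Sh Rh Cc μ B lo ca LB hLB q D κ) := rfl

/-- The failure event is the one of the finite family of machines. -/
theorem failTopW_iff (hLB : LB ≠ []) {a0 b0 Sm NR : ℕ} {Bd d : ℝ}
    {D : ℕ → ℕ → ℕ → ℕ → ℕ → ℕ} {coin : ℕ → ℕ} :
    FailTopW K h wm Z g NL Dl R T Sh Rh Cc μ B lo ca LB hLB a0 b0 Sm NR Bd d D coin ↔
      FailG (range NL ×ˢ (range Dl ×ˢ range R)) Sm T NR Bd d
        (fun I => pcTW K h wm Z g NL Dl R T Sh Rh Cc μ B lo ca LB hLB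
          (encQ (2 * g) NL Dl R a0 b0 I.1 I.2.1 I.2.2 0) D) coin := by
  unfold FailTopW FailG
  constructor
  · rintro ⟨l, hl, o, ho, r, hr, hf⟩
    exact ⟨(l, o, r), by simp [hl, ho, hr], hf⟩
  · rintro ⟨⟨l, o, r⟩, hI, hf⟩
    simp only [Finset.mem_product, Finset.mem_range] at hI
    exact ⟨l, hI.1, o, hI.2.1, r, hI.2.2, hf⟩

/-- **A good sample** for the machines with edge weights: outside the failure event, in every
round `κ < NR` in which the mean excess is at most `Bd`, some sample has excess at most the mean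
plus `d`. -/
theorem exists_sampleW (hLB : LB ≠ []) {a0 b0 Sm NR : ℕ} {Bd d : ℝ}
    {D : ℕ → ℕ → ℕ → ℕ → ℕ → ℕ} {coin : ℕ → ℕ}
    (hF : ¬ FailTopW K h wm Z g NL Dl R T Sh Rh Cc μ B lo ca LB hLB a0 b0 Sm NR Bd d D coin)
    {l o r κ : ℕ} (hl : l < NL) (ho : o < Dl) (hr : r < R) (hκ : κ < NR)
    (hle : (∑ n ∈ range T, pcTW K h wm Z g NL Dl R T Sh Rh Cc μ B lo ca LB hLB
      (encQ (2 * g) NL Dl R a0 b0 l o r 0) D κ n) / T ≤ Bd) :
    ∃ sm < Sm, pcTW K h wm Z g NL Dl R T Sh Rh Cc μ B lo ca LB hLB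
        (encQ (2 * g) NL Dl R a0 b0 l o r 0) D κ (coin sm % T) ≤
      (∑ n ∈ range T, pcTW K h wm Z g NL Dl R T Sh Rh Cc μ B lo ca LB hLB
        (encQ (2 * g) NL Dl R a0 b0 l o r 0) D κ n) / T + d :=
  FailG.exists_sample (fun h' => hF ((failTopW_iff hLB).2 h')) (I := (l, o, r))
    (by simp [hl, ho, hr]) hκ hle

/-- The same with the value of the row law. -/
theorem exists_sampleW' (hLB : LB ≠ []) {a0 b0 Sm NR : ℕ} {Bd d : ℝ}
    {D : ℕ → ℕ → ℕ → ℕ → ℕ → ℕ} {coin : ℕ → ℕ} (hT : 0 < T)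
    (hF : ¬ FailTopW K h wm Z g NL Dl R T Sh Rh Cc μ B lo ca LB hLB a0 b0 Sm NR Bd d D coin)
    {l o r κ : ℕ} (hl : l < NL) (ho : o < Dl) (hr : r < R) (hκ : κ < NR)
    (hle : H782.val (H801.Dr (K + 2) (H155.pW K g LB) (H155.nodeW K Z g μ B lo LB D) (κ + h))
        (H782.xx (H155.pkW K h wm Z g NL Dl R T Sh Rh Cc μ B lo
          (encQ (2 * g) NL Dl R a0 b0 l o r 0) κ ca LB hLB D) T) ≤
      (H801.WD (K + 2) (H155.pW K g LB) (qA (2 * g) (encQ (2 * g) NL Dl R a0 b0 l o r 0) * K)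
        (min (qB (2 * g) (encQ (2 * g) NL Dl R a0 b0 l o r 0)) (2 * g) * K)
        (H155.nodeW K Z g μ B lo LB D (κ + h)) : ℝ) + Bd) :
    ∃ sm < Sm, (∑ i : Fin (K + 2), (H155.nodeW K Z g μ B lo LB D (κ + h) i
      (H155.pkW K h wm Z g NL Dl R T Sh Rh Cc μ B lo (encQ (2 * g) NL Dl R a0 b0 l o r 0) κ ca
        LB hLB D (coin sm % T) i).1
      (H155.pkW K h wm Z g NL Dl R T Sh Rh Cc μ B lo (encQ (2 * g) NL Dl R a0 b0 l o r 0) κ ca
        LB hLB D (coin sm % T) i).2 : ℝ)) ≤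
      H782.val (H801.Dr (K + 2) (H155.pW K g LB) (H155.nodeW K Z g μ B lo LB D) (κ + h))
        (H782.xx (H155.pkW K h wm Z g NL Dl R T Sh Rh Cc μ B lo
          (encQ (2 * g) NL Dl R a0 b0 l o r 0) κ ca LB hLB D) T) + d := by
  obtain ⟨sm, hsm, h1⟩ := exists_sampleW hLB hF hl ho hr hκ
    (by rw [pcTW_mean hLB hT]; linarith)
  refine ⟨sm, hsm, ?_⟩
  rw [pcTW_mean hLB hT] at h1
  unfold pcTW at h1
  linarith

/-- **Probability of the failure event** of one region and one scale. -/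
theorem failTopW_prob {n M S Cn q : ℕ} (hLB : LB ≠ []) (J : ℕ) (P : Par) (mc : Mach)
    (vis hid : Leaf) (hq : 0 < q) {a0 b0 Sm NR : ℕ} {Bd d : ℝ} (hTq : T ∣ q) {j s : ℕ}
    (hj : 0 < j) (hjn : j < n + 1) (hs : s < S) (i a : ℕ) (hSm : Sm ≤ Cn) (hBd : 0 ≤ Bd)
    (hd : 0 < d) :
    av (fun w : Ix n M S Cn → Fin q => Acc.ind
      (FailTopW K h wm Z g NL Dl R T Sh Rh Cc μ B lo ca LB hLB a0 b0 Sm NR Bd d
        (ownHist J P mc vis hid j i a s w) ((toRnd J w).coin j s))) ≤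
      NL * Dl * R * (NR * (Bd / (Bd + d)) ^ Sm) := by
  have key := failG_prob (n := n) (M := M) (S := S) (Cn := Cn) J P mc vis hid hq
    (range NL ×ˢ (range Dl ×ˢ range R)) (NR := NR) (Bd := Bd) hTq hj hjn hs i a hSm hBd hd
    (fun D I => pcTW K h wm Z g NL Dl R T Sh Rh Cc μ B lo ca LB hLB
      (encQ (2 * g) NL Dl R a0 b0 I.1 I.2.1 I.2.2 0) D)
    (fun D I κ t ht => pcTW_nonneg hLB _ D κ ht)
  simp only [failTopW_iff hLB]
  refine key.trans (le_of_eq ?_)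
  rw [Finset.card_product, Finset.card_product, card_range, card_range, card_range]
  push_cast
  ring

/-! ### Only the rounds in active blocks -/

/-- **The failure event** of the machines with entry `a0` and exit `b0`, in the rounds of the
active blocks of rank less than `R`. -/
def FailTopWA (K h wm Z g NL Dl R T Sh Rh Cc μ B lo ca : ℕ) (LB : List ℕ) (hLB : LB ≠ [])
    (a0 b0 Sm NR : ℕ) (Bd d : ℝ) (D : ℕ → ℕ → ℕ → ℕ → ℕ → ℕ) (coin : ℕ → ℕ) : Prop :=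
  ∃ l < NL, ∃ o < Dl, ∃ r < R, FailP Sm T (fun _ r' => r') d
    (roundsA Dl o R NR (H801.actD (K + 2) (H155.pW K g LB) (a0 * K) (b0 * K) Dl o
      (H801.cdiv (K * Z) (2 ^ l)) (H801.cdiv (K * Z) (2 ^ (l + 1)))
      (H155.nodeW K Z g μ B lo LB D)))
    (pcBW K h wm Z g NL Dl R T Sh Rh Cc μ B lo ca LB hLB Bd
      (encQ (2 * g) NL Dl R a0 b0 l o r 0) D) coin

theorem failTopWA_iff (hLB : LB ≠ []) {a0 b0 Sm NR : ℕ} {Bd d : ℝ}
    {D : ℕ → ℕ → ℕ → ℕ → ℕ → ℕ} {coin : ℕ → ℕ} :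
    FailTopWA K h wm Z g NL Dl R T Sh Rh Cc μ B lo ca LB hLB a0 b0 Sm NR Bd d D coin ↔
      FailGA (range NL ×ˢ (range Dl ×ˢ range R)) Sm T
        (fun I => roundsA Dl I.2.1 R NR (H801.actD (K + 2) (H155.pW K g LB) (a0 * K) (b0 * K) Dl
          I.2.1 (H801.cdiv (K * Z) (2 ^ I.1)) (H801.cdiv (K * Z) (2 ^ (I.1 + 1)))
          (H155.nodeW K Z g μ B lo LB D))) Bd d
        (fun I => pcTW K h wm Z g NL Dl R T Sh Rh Cc μ B lo ca LB hLB
          (encQ (2 * g) NL Dl R a0 b0 I.1 I.2.1 I.2.2 0) D) coin := by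
  unfold FailTopWA FailGA
  constructor
  · rintro ⟨l, hl, o, ho, r, hr, hf⟩
    exact ⟨(l, o, r), by simp [hl, ho, hr], hf⟩
  · rintro ⟨⟨l, o, r⟩, hI, hf⟩
    simp only [Finset.mem_product, Finset.mem_range] at hI
    exact ⟨l, hI.1, o, hI.2.1, r, hI.2.2, hf⟩

/-- **A good sample**: outside the failure event, in every round `κ < NR` of an active block of
rank less than `R` in which the mean excess is at most `Bd`, some sample has excess at most the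
mean plus `d`. -/
theorem exists_sampleWA (hLB : LB ≠ []) {a0 b0 Sm NR : ℕ} {Bd d : ℝ}
    {D : ℕ → ℕ → ℕ → ℕ → ℕ → ℕ} {coin : ℕ → ℕ}
    (hF : ¬ FailTopWA K h wm Z g NL Dl R T Sh Rh Cc μ B lo ca LB hLB a0 b0 Sm NR Bd d D coin)
    {l o r κ : ℕ} (hl : l < NL) (ho : o < Dl) (hr : r < R) (hκ : κ < NR)
    (hact : H801.actD (K + 2) (H155.pW K g LB) (a0 * K) (b0 * K) Dl o
      (H801.cdiv (K * Z) (2 ^ l)) (H801.cdiv (K * Z) (2 ^ (l + 1)))
      (H155.nodeW K Z g μ B lo LB D) (H801.blk Dl o κ))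
    (hrk : H801.rk (H801.actD (K + 2) (H155.pW K g LB) (a0 * K) (b0 * K) Dl o
      (H801.cdiv (K * Z) (2 ^ l)) (H801.cdiv (K * Z) (2 ^ (l + 1)))
      (H155.nodeW K Z g μ B lo LB D)) (H801.blk Dl o κ) < R)
    (hle : (∑ n ∈ range T, pcTW K h wm Z g NL Dl R T Sh Rh Cc μ B lo ca LB hLB
      (encQ (2 * g) NL Dl R a0 b0 l o r 0) D κ n) / T ≤ Bd) :
    ∃ sm < Sm, pcTW K h wm Z g NL Dl R T Sh Rh Cc μ B lo ca LB hLB
        (encQ (2 * g) NL Dl R a0 b0 l o r 0) D κ (coin sm % T) ≤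
      (∑ n ∈ range T, pcTW K h wm Z g NL Dl R T Sh Rh Cc μ B lo ca LB hLB
        (encQ (2 * g) NL Dl R a0 b0 l o r 0) D κ n) / T + d :=
  FailGA.exists_sample (fun h' => hF ((failTopWA_iff hLB).2 h')) (I := (l, o, r))
    (by simp [hl, ho, hr]) (mem_roundsA.2 ⟨hκ, hact, hrk⟩) hle

/-- The same with the value of the row law. -/
theorem exists_sampleWA' (hLB : LB ≠ []) {a0 b0 Sm NR : ℕ} {Bd d : ℝ}
    {D : ℕ → ℕ → ℕ → ℕ → ℕ → ℕ} {coin : ℕ → ℕ} (hT : 0 < T)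
    (hF : ¬ FailTopWA K h wm Z g NL Dl R T Sh Rh Cc μ B lo ca LB hLB a0 b0 Sm NR Bd d D coin)
    {l o r κ : ℕ} (hl : l < NL) (ho : o < Dl) (hr : r < R) (hκ : κ < NR)
    (hact : H801.actD (K + 2) (H155.pW K g LB) (a0 * K) (b0 * K) Dl o
      (H801.cdiv (K * Z) (2 ^ l)) (H801.cdiv (K * Z) (2 ^ (l + 1)))
      (H155.nodeW K Z g μ B lo LB D) (H801.blk Dl o κ))
    (hrk : H801.rk (H801.actD (K + 2) (H155.pW K g LB) (a0 * K) (b0 * K) Dl o
      (H801.cdiv (K * Z) (2 ^ l)) (H801.cdiv (K * Z) (2 ^ (l + 1)))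
      (H155.nodeW K Z g μ B lo LB D)) (H801.blk Dl o κ) < R)
    (hle : H782.val (H801.Dr (K + 2) (H155.pW K g LB) (H155.nodeW K Z g μ B lo LB D) (κ + h))
        (H782.xx (H155.pkW K h wm Z g NL Dl R T Sh Rh Cc μ B lo
          (encQ (2 * g) NL Dl R a0 b0 l o r 0) κ ca LB hLB D) T) ≤
      (H801.WD (K + 2) (H155.pW K g LB) (qA (2 * g) (encQ (2 * g) NL Dl R a0 b0 l o r 0) * K)
        (min (qB (2 * g) (encQ (2 * g) NL Dl R a0 b0 l o r 0)) (2 * g) * K)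
        (H155.nodeW K Z g μ B lo LB D (κ + h)) : ℝ) + Bd) :
    ∃ sm < Sm, (∑ i : Fin (K + 2), (H155.nodeW K Z g μ B lo LB D (κ + h) i
      (H155.pkW K h wm Z g NL Dl R T Sh Rh Cc μ B lo (encQ (2 * g) NL Dl R a0 b0 l o r 0) κ ca
        LB hLB D (coin sm % T) i).1
      (H155.pkW K h wm Z g NL Dl R T Sh Rh Cc μ B lo (encQ (2 * g) NL Dl R a0 b0 l o r 0) κ ca
        LB hLB D (coin sm % T) i).2 : ℝ)) ≤
      H782.val (H801.Dr (K + 2) (H155.pW K g LB) (H155.nodeW K Z g μ B lo LB D) (κ + h))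
        (H782.xx (H155.pkW K h wm Z g NL Dl R T Sh Rh Cc μ B lo
          (encQ (2 * g) NL Dl R a0 b0 l o r 0) κ ca LB hLB D) T) + d := by
  obtain ⟨sm, hsm, h1⟩ := exists_sampleWA hLB hF hl ho hr hκ hact hrk
    (by rw [pcTW_mean hLB hT]; linarith)
  refine ⟨sm, hsm, ?_⟩
  rw [pcTW_mean hLB hT] at h1
  unfold pcTW at h1
  linarith

/-- **Probability of the failure event** of one region and one scale; the number of rounds does
not matter. -/
theorem failTopWA_prob {n M S Cn q : ℕ} (hLB : LB ≠ []) (J : ℕ) (P : Par) (mc : Mach)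
    (vis hid : Leaf) (hq : 0 < q) {a0 b0 Sm NR : ℕ} {Bd d : ℝ} (hTq : T ∣ q) {j s : ℕ}
    (hj : 0 < j) (hjn : j < n + 1) (hs : s < S) (i a : ℕ) (hSm : Sm ≤ Cn) (hBd : 0 ≤ Bd)
    (hd : 0 < d) :
    av (fun w : Ix n M S Cn → Fin q => Acc.ind
      (FailTopWA K h wm Z g NL Dl R T Sh Rh Cc μ B lo ca LB hLB a0 b0 Sm NR Bd d
        (ownHist J P mc vis hid j i a s w) ((toRnd J w).coin j s))) ≤
      NL * Dl * R * (R * Dl * (Bd / (Bd + d)) ^ Sm) := by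
  have key := failGA_prob (n := n) (M := M) (S := S) (Cn := Cn) J P mc vis hid hq
    (range NL ×ˢ (range Dl ×ˢ range R)) (NA := R * Dl) (Bd := Bd) hTq hj hjn hs i a hSm hBd hd
    (fun D I => pcTW K h wm Z g NL Dl R T Sh Rh Cc μ B lo ca LB hLB
      (encQ (2 * g) NL Dl R a0 b0 I.1 I.2.1 I.2.2 0) D)
    (fun D I κ t ht => pcTW_nonneg hLB _ D κ ht)
    (fun D I => roundsA Dl I.2.1 R NR (H801.actD (K + 2) (H155.pW K g LB) (a0 * K) (b0 * K) Dl
      I.2.1 (H801.cdiv (K * Z) (2 ^ I.1)) (H801.cdiv (K * Z) (2 ^ (I.1 + 1)))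
      (H155.nodeW K Z g μ B lo LB D)))
    (fun D I hI => by
      simp only [Finset.mem_product, Finset.mem_range] at hI
      exact card_roundsA_le (by omega) _ _ _ _)
  simp only [failTopWA_iff hLB]
  refine key.trans (le_of_eq ?_)
  rw [Finset.card_product, Finset.card_product, card_range, card_range, card_range]
  push_cast
  ring

end W

end Vale.Agent.P315.H659
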