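import Vale.Agent.P315.H659.FailTop

/-!
P315 (helper659): failure events for an abstract family of machines. The machines with edge
weights are treated in `FailTopW`.
-/

set_option autoImplicit false

open Finset

namespace Vale.Agent.P315.H659

open C
open H731 (av)

/-! ### Any family of machines -/

open Classical in
/-- Costs of the stored paths, replaced by `0` if their mean is larger than `Bd`. -/
noncomputable def cutB (T : ℕ) (Bd : ℝ) (pc : ℕ → ℝ) (t : ℕ) : ℝ :=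
  if (∑ t' ∈ range T, pc t') / T ≤ Bd then pc t else 0

theorem cutB_nonneg_of {T : ℕ} {Bd : ℝ} {pc : ℕ → ℝ} {t : ℕ} (h : 0 ≤ pc t) :
    0 ≤ cutB T Bd pc t := by
  unfold cutB
  split_ifs
  · exact h
  · exact le_rfl

theorem cutB_eq {T : ℕ} {Bd : ℝ} {pc : ℕ → ℝ} (h : (∑ t' ∈ range T, pc t') / T ≤ Bd) :
    cutB T Bd pc = pc := by
  funext t
  unfold cutB
  rw [if_pos h]

theorem cutB_mean {T : ℕ} {Bd : ℝ} (hBd : 0 ≤ Bd) (pc : ℕ → ℝ) :
    (∑ t ∈ range T, cutB T Bd pc t) / T ≤ Bd := by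
  by_cases h : (∑ t' ∈ range T, pc t') / T ≤ Bd
  · rw [cutB_eq h]; exact h
  · have h1 : ∀ t ∈ range T, cutB T Bd pc t = 0 := by
      intro t _
      unfold cutB
      rw [if_neg h]
    rw [Finset.sum_congr rfl h1]
    simpa using hBd

/-- **Failure of a finite family `Q` of machines** in the rounds `κ < NR`; `pc I κ t` = cost of
the stored path number `t` of machine `I` in round `κ`; the sample number `r` is `coin r % T`. -/
def FailG {ι : Type*} (Q : Finset ι) (Sm T NR : ℕ) (Bd d : ℝ) (pc : ι → ℕ → ℕ → ℝ)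
    (coin : ℕ → ℕ) : Prop :=
  ∃ I ∈ Q, FailP Sm T (fun _ r => r) d (range NR) (fun κ => cutB T Bd (pc I κ)) coin

/-- A good sample. -/
theorem FailG.exists_sample {ι : Type*} {Q : Finset ι} {Sm T NR : ℕ} {Bd d : ℝ}
    {pc : ι → ℕ → ℕ → ℝ} {coin : ℕ → ℕ} (hF : ¬ FailG Q Sm T NR Bd d pc coin) {I : ι}
    (hI : I ∈ Q) {κ : ℕ} (hκ : κ < NR) (hle : (∑ t ∈ range T, pc I κ t) / T ≤ Bd) :
    ∃ r < Sm, pc I κ (coin r % T) ≤ (∑ t ∈ range T, pc I κ t) / T + d := by
  by_contra hcon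
  push Not at hcon
  refine hF ⟨I, hI, κ, Finset.mem_range.2 hκ, fun r hr => ?_⟩
  beta_reduce
  rw [cutB_eq hle]
  exact hcon r hr

section prob

variable {n M S Cn q : ℕ}

/-- **Probability of the failure** of a finite family of machines of one region and one scale;
all data are functions of the own history. -/
theorem failG_prob (J : ℕ) (P : Par) (mc : Mach) (vis hid : Leaf) (hq : 0 < q) {ι : Type*}
    (Q : Finset ι) {Sm T NR : ℕ} {Bd d : ℝ} (hTq : T ∣ q) {j s : ℕ} (hj : 0 < j)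
    (hjn : j < n + 1) (hs : s < S) (i a : ℕ) (hSm : Sm ≤ Cn) (hBd : 0 ≤ Bd) (hd : 0 < d)
    (pc : (ℕ → ℕ → ℕ → ℕ → ℕ → ℕ) → ι → ℕ → ℕ → ℝ)
    (h0 : ∀ D I κ t, t < T → 0 ≤ pc D I κ t) :
    av (fun w : Ix n M S Cn → Fin q => Acc.ind
      (FailG Q Sm T NR Bd d (pc (ownHist J P mc vis hid j i a s w)) ((toRnd J w).coin j s))) ≤
      Q.card * (NR * (Bd / (Bd + d)) ^ Sm) :=
  fail_region (n := n) (M := M) (S := S) (Cn := Cn) J P mc vis hid hq hTq hj hjn hs i a Q
    (Sm := Sm) (num := fun _ _ r => r) (fun _ _ _ r hr => lt_of_lt_of_le hr hSm)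
    (fun _ _ _ _ _ _ _ h => h) (fun I D κ => cutB T Bd (pc D I κ))
    (fun I _ w κ t ht => cutB_nonneg_of (h0 _ _ _ t ht)) (fun I _ w κ => cutB_mean hBd _) hd
    (fun _ _ => range NR) (m := NR) (fun _ _ _ => by rw [card_range])
    (fun w => FailG Q Sm T NR Bd d (pc (ownHist J P mc vis hid j i a s w))
      ((toRnd J w).coin j s)) (fun w hw => hw)

end prob

/-- The mean over the stored paths is the value of the row law. -/
theorem mean_eq_val {I E : Type*} [Fintype I] [Fintype E] [DecidableEq E] {T : ℕ} (hT : 0 < T)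
    (A : I → E → ℝ) (p : ℕ → I → E) :
    (∑ t ∈ range T, ∑ i, A i (p t i)) / T = H782.val A (H782.xx p T) := by
  have hT' : (T : ℝ) ≠ 0 := by exact_mod_cast hT.ne'
  rw [← H782.val_xx A p hT, mul_div_cancel_left₀ _ hT']

/-! ### The machines of the additive geometry -/

theorem pcT_mean {K h Tu g NL Dl R T Sh Cc μ B a q : ℕ} (hT : 0 < T)
    (D : ℕ → ℕ → ℕ → ℕ → ℕ → ℕ) (κ : ℕ) :
    (∑ n ∈ range T, pcT K h Tu g NL Dl R T Sh Cc μ B a q D κ n) / T =
      H782.val (H801.Dr (K + 2) (2 * K * g + 1) (H801.nodeD K Tu g μ B a D) (κ + h))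
        (H782.xx (H801.pk K h Tu g NL Dl R T Sh Cc μ B q κ a D) T) :=
  mean_eq_val hT (H801.Dr (K + 2) (2 * K * g + 1) (H801.nodeD K Tu g μ B a D) (κ + h))
    (H801.pk K h Tu g NL Dl R T Sh Cc μ B q κ a D)

end Vale.Agent.P315.H659
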