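import Vale.Agent.P315.C.Alg
import Vale.Agent.P315.H731.Avg
import Vale.Agent.P315.H132.Lanes

/-!
P315, row C-H3, part G5: locality of the read sets and of the certified costs in the random data.

The read sets of level `j` depend only on the jitters and coins of the levels `≤ j`; what the
machines of a region of level `j` and scale `s` see depends on the data of the levels `≤ j - 2 ^ s`
and, through the index of the units only, on the jitters of the levels above up to `j`.
-/

set_option autoImplicit false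

open Finset

namespace Vale.Agent.P315.H659

open C

/-! ### Agreement of random data up to a level -/

/-- The random data agree in all levels `≤ j`. -/
structure Agree (j : ℕ) (ω ω' : Rnd) : Prop where
  xi : ∀ l, l ≤ j → ω.xi l = ω'.xi l
  coin : ∀ l, l ≤ j → ω.coin l = ω'.coin l

theorem Agree.refl (j : ℕ) (ω : Rnd) : Agree j ω ω := ⟨fun _ _ => rfl, fun _ _ => rfl⟩

theorem Agree.symm {j : ℕ} {ω ω' : Rnd} (h : Agree j ω ω') : Agree j ω' ω :=
  ⟨fun l hl => (h.xi l hl).symm, fun l hl => (h.coin l hl).symm⟩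

theorem Agree.trans {j : ℕ} {ω ω' ω'' : Rnd} (h : Agree j ω ω') (h' : Agree j ω' ω'') :
    Agree j ω ω'' :=
  ⟨fun l hl => (h.xi l hl).trans (h'.xi l hl), fun l hl => (h.coin l hl).trans (h'.coin l hl)⟩

theorem Agree.mono {j l : ℕ} {ω ω' : Rnd} (h : Agree j ω ω') (hl : l ≤ j) : Agree l ω ω' :=
  ⟨fun k hk => h.xi k (hk.trans hl), fun k hk => h.coin k (hk.trans hl)⟩

/-- The sum of the jitters between level `j` and the levels `e` below uses only the levels
`j - e < l ≤ j`. -/
theorem Xi_congr (P : Par) {ω ω' : Rnd} {j e : ℕ}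
    (h : ∀ l, l ≤ j → j < l + e → ω.xi l = ω'.xi l) (he : e ≤ j) (m : ℕ) :
    Xi P ω j e m = Xi P ω' j e m := by
  unfold Xi
  refine Finset.sum_congr rfl fun x hx => ?_
  have hx' : x < e := Finset.mem_range.mp hx
  rw [h (j - x) (by omega) (by omega)]

/-- The same without the restriction on `e`. -/
theorem Xi_congr' (P : Par) {ω ω' : Rnd} {j e : ℕ} (h : ∀ l, l ≤ j → ω.xi l = ω'.xi l) (m : ℕ) :
    Xi P ω j e m = Xi P ω' j e m := by
  unfold Xi
  refine Finset.sum_congr rfl fun x _ => ?_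
  rw [h (j - x) (by omega)]

theorem uidx_congr (P : Par) {ω ω' : Rnd} {j : ℕ} (h : ∀ l, l ≤ j → ω.xi l = ω'.xi l)
    (a s κ m x : ℕ) : uidx P ω j a s κ m x = uidx P ω' j a s κ m x := by
  unfold uidx
  rw [Xi_congr' P h]

/-- The unit costs seen by the machines of scale `s` in a region of level `j`. -/
theorem hist_congr_rnd (P : Par) (vis hid : Leaf) {ω ω' : Rnd} {rd rd' : ℕ → RSet} {j s : ℕ}
    (hrd : rd (j - 2 ^ s) = rd' (j - 2 ^ s)) (h : ∀ l, l ≤ j → ω.xi l = ω'.xi l) (i a : ℕ) :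
    hist P ω vis hid rd j i a s = hist P ω' vis hid rd' j i a s := by
  unfold hist
  funext κ m x u v
  rw [hrd, uidx_congr P h]

theorem laneOf_congr_rnd (P : Par) (mc : Mach) (vis hid : Leaf) {ω ω' : Rnd}
    {rd rd' : ℕ → RSet} {j s : ℕ} (hrd : rd (j - 2 ^ s) = rd' (j - 2 ^ s))
    (h : ∀ l, l ≤ j → ω.xi l = ω'.xi l) (hc : ω.coin j s = ω'.coin j s) (i a q κ : ℕ) :
    laneOf P mc ω vis hid rd j i a s q κ = laneOf P mc ω' vis hid rd' j i a s q κ := by
  unfold laneOf
  rw [hist_congr_rnd P vis hid hrd h, hc]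

/-- **Locality of the read sets.** -/
theorem rd_congr (P : Par) (mc : Mach) (vis hid : Leaf) {ω ω' : Rnd} (j : ℕ)
    (h : Agree j ω ω') : rd P mc ω vis hid j = rd P mc ω' vis hid j := by
  induction j using Nat.strong_induction_on with
  | _ j ih =>
    rcases j with _ | j
    · rfl
    · rw [rd_succ, rd_succ]
      funext i a b
      unfold stepRead
      have h0 : rd P mc ω vis hid (j + 1 - 1) = rd P mc ω' vis hid (j + 1 - 1) :=
        ih _ (by omega) (h.mono (by omega))
      rw [h0, h.xi (j + 1) le_rfl]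
      congr 1
      refine Finset.biUnion_congr rfl fun s hs => ?_
      have h1 : 1 ≤ 2 ^ s := Nat.one_le_two_pow
      have h2 : rd P mc ω vis hid (j + 1 - 2 ^ s) = rd P mc ω' vis hid (j + 1 - 2 ^ s) :=
        ih _ (by omega) (h.mono (by omega))
      refine Finset.biUnion_congr rfl fun q _ => ?_
      refine Finset.biUnion_congr rfl fun κ _ => ?_
      refine Finset.biUnion_congr rfl fun m _ => ?_
      rw [laneOf_congr_rnd P mc vis hid h2 h.xi (by rw [h.coin (j + 1) le_rfl]), h2,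
        uidx_congr P h.xi]

/-- **Locality of the certified costs.** -/
theorem cR_congr (P : Par) (mc : Mach) (vis hid : Leaf) {ω ω' : Rnd} (j : ℕ)
    (h : Agree j ω ω') : cR P mc ω vis hid j = cR P mc ω' vis hid j := by
  funext i a b u v
  unfold cR
  rw [rd_congr P mc vis hid j h]

/-- The history seen by the machines of scale `s` in a region of level `j` does not depend on the
coins of the levels above `j - 2 ^ s`. -/
theorem hist_rd_congr (P : Par) (mc : Mach) (vis hid : Leaf) {ω ω' : Rnd} {j s : ℕ}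
    (h : ∀ l, l ≤ j → ω.xi l = ω'.xi l)
    (hc : ∀ l, l ≤ j - 2 ^ s → ω.coin l = ω'.coin l) (i a : ℕ) :
    hist P ω vis hid (rd P mc ω vis hid) j i a s =
      hist P ω' vis hid (rd P mc ω' vis hid) j i a s :=
  hist_congr_rnd P vis hid
    (rd_congr P mc vis hid _ ⟨fun l hl => h l (hl.trans (Nat.sub_le _ _)), hc⟩) h i a

/-! ### A finite space of seeds -/

/-- Numbers of the seed words: jitters (level, child) and coins (level, scale, number). -/
abbrev Ix (n M S Cn : ℕ) : Type := (Fin (n + 1) × Fin M) ⊕ (Fin (n + 1) × Fin S × Fin Cn)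

/-- Level of a seed word. -/
def Ix.lev {n M S Cn : ℕ} : Ix n M S Cn → ℕ
  | .inl x => x.1
  | .inr x => x.1

section Seeds

variable {n M S Cn q : ℕ}

/-- The random data given by the seed words: jitters are words modulo `J + 1`. -/
def toRnd (J : ℕ) (w : Ix n M S Cn → Fin q) : Rnd where
  xi := fun l m => if h : l < n + 1 ∧ m < M then
    (w (.inl (⟨l, h.1⟩, ⟨m, h.2⟩)) : ℕ) % (J + 1) else 0
  coin := fun l s c => if h : l < n + 1 ∧ s < S ∧ c < Cn then
    (w (.inr (⟨l, h.1⟩, ⟨s, h.2.1⟩, ⟨c, h.2.2⟩)) : ℕ) else 0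

theorem toRnd_xi_le (J : ℕ) (w : Ix n M S Cn → Fin q) (l m : ℕ) : (toRnd J w).xi l m ≤ J := by
  unfold toRnd
  dsimp only
  split_ifs
  · exact Nat.lt_succ_iff.mp (Nat.mod_lt _ (Nat.succ_pos _))
  · exact Nat.zero_le _

/-- The seed words which matter for the levels `≤ j`. -/
def upTo (n M S Cn j : ℕ) : Set (Ix n M S Cn) := {i | i.lev ≤ j}

theorem toRnd_agree (J : ℕ) {w w' : Ix n M S Cn → Fin q} {j : ℕ}
    (h : ∀ i ∈ upTo n M S Cn j, w i = w' i) : Agree j (toRnd J w) (toRnd J w') := by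
  constructor
  · intro l hl
    funext m
    unfold toRnd
    dsimp only
    split_ifs with hm
    · rw [h (.inl (⟨l, hm.1⟩, ⟨m, hm.2⟩)) hl]
    · rfl
  · intro l hl
    funext s c
    unfold toRnd
    dsimp only
    split_ifs with hm
    · rw [h (.inr (⟨l, hm.1⟩, ⟨s, hm.2.1⟩, ⟨c, hm.2.2⟩)) hl]
    · rfl

/-- The jitters of the levels `≤ j` and the coins of the levels `≤ l`. -/
def seen (n M S Cn j l : ℕ) : Set (Ix n M S Cn) :=
  {i | (∃ x, i = .inl x ∧ (x.1 : ℕ) ≤ j) ∨ (∃ x, i = .inr x ∧ (x.1 : ℕ) ≤ l)}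

theorem upTo_subset_seen {j l : ℕ} : upTo n M S Cn (min j l) ⊆ seen n M S Cn j l := by
  rintro (x | x) hx
  · exact Or.inl ⟨x, rfl, (le_min_iff.mp hx).1⟩
  · exact Or.inr ⟨x, rfl, (le_min_iff.mp hx).2⟩

theorem toRnd_xi_congr (J : ℕ) {w w' : Ix n M S Cn → Fin q} {j l : ℕ}
    (h : ∀ i ∈ seen n M S Cn j l, w i = w' i) {k : ℕ} (hk : k ≤ j) :
    (toRnd J w).xi k = (toRnd J w').xi k := by
  funext m
  unfold toRnd
  dsimp only
  split_ifs with hm
  · rw [h (.inl (⟨k, hm.1⟩, ⟨m, hm.2⟩)) (Or.inl ⟨_, rfl, hk⟩)]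
  · rfl

theorem toRnd_coin_congr (J : ℕ) {w w' : Ix n M S Cn → Fin q} {j l : ℕ}
    (h : ∀ i ∈ seen n M S Cn j l, w i = w' i) {k : ℕ} (hk : k ≤ l) :
    (toRnd J w).coin k = (toRnd J w').coin k := by
  funext s c
  unfold toRnd
  dsimp only
  split_ifs with hm
  · rw [h (.inr (⟨k, hm.1⟩, ⟨s, hm.2.1⟩, ⟨c, hm.2.2⟩)) (Or.inr ⟨_, rfl, hk⟩)]
  · rfl

/-- Read sets of level `j` depend on the seed words of the levels `≤ j`. -/
theorem dependsOn_rd (J : ℕ) (P : Par) (mc : Mach) (vis hid : Leaf) (j : ℕ) :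
    DependsOn (fun w : Ix n M S Cn → Fin q => rd P mc (toRnd J w) vis hid j)
      (upTo n M S Cn j) := by
  intro w w' h
  exact rd_congr P mc vis hid j (toRnd_agree J h)

theorem dependsOn_cR (J : ℕ) (P : Par) (mc : Mach) (vis hid : Leaf) (j : ℕ) :
    DependsOn (fun w : Ix n M S Cn → Fin q => cR P mc (toRnd J w) vis hid j)
      (upTo n M S Cn j) := by
  intro w w' h
  exact cR_congr P mc vis hid j (toRnd_agree J h)

/-- What the machines of scale `s` see in a region of level `j`. -/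
theorem dependsOn_hist (J : ℕ) (P : Par) (mc : Mach) (vis hid : Leaf) (j i a s : ℕ) :
    DependsOn (fun w : Ix n M S Cn → Fin q =>
      hist P (toRnd J w) vis hid (rd P mc (toRnd J w) vis hid) j i a s)
      (seen n M S Cn j (j - 2 ^ s)) := by
  intro w w' h
  exact hist_rd_congr P mc vis hid (fun l hl => toRnd_xi_congr J h hl)
    (fun l hl => toRnd_coin_congr J h hl) i a

/-- Coordinates of the coins of level `j` and scale `s`. -/
def coinAt (n M S Cn j s : ℕ) : Finset (Ix n M S Cn) := by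
  classical
  exact univ.filter fun i => ∃ x, i = .inr x ∧ (x.1 : ℕ) = j ∧ (x.2.1 : ℕ) = s

/-- Coordinates of the jitters of level `j`. -/
def jitAt (n M S Cn j : ℕ) : Finset (Ix n M S Cn) := by
  classical
  exact univ.filter fun i => ∃ x, i = .inl x ∧ (x.1 : ℕ) = j

theorem mem_coinAt {j s : ℕ} {i : Ix n M S Cn} :
    i ∈ coinAt n M S Cn j s ↔ ∃ x, i = .inr x ∧ (x.1 : ℕ) = j ∧ (x.2.1 : ℕ) = s := by
  simp [coinAt]

theorem mem_jitAt {j : ℕ} {i : Ix n M S Cn} :
    i ∈ jitAt n M S Cn j ↔ ∃ x, i = .inl x ∧ (x.1 : ℕ) = j := by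
  simp [jitAt]

theorem seen_subset_compl_coinAt {j l s : ℕ} (hl : l < j) :
    seen n M S Cn j l ⊆ ((coinAt n M S Cn j s : Finset _) : Set (Ix n M S Cn))ᶜ := by
  intro i hi hc
  rw [mem_coe, mem_coinAt] at hc
  obtain ⟨x, rfl, h1, -⟩ := hc
  rcases hi with ⟨y, hy, -⟩ | ⟨y, hy, hy'⟩
  · cases hy
  · obtain rfl : x = y := by injection hy
    omega

theorem upTo_subset_compl_coinAt {j l s : ℕ} (hl : l < j) :
    upTo n M S Cn l ⊆ ((coinAt n M S Cn j s : Finset _) : Set (Ix n M S Cn))ᶜ := by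
  intro i hi hc
  rw [mem_coe, mem_coinAt] at hc
  obtain ⟨x, rfl, h1, -⟩ := hc
  have : (x.1 : ℕ) ≤ l := hi
  omega

theorem upTo_subset_compl_jitAt {j l : ℕ} (hl : l < j) :
    upTo n M S Cn l ⊆ ((jitAt n M S Cn j : Finset _) : Set (Ix n M S Cn))ᶜ := by
  intro i hi hc
  rw [mem_coe, mem_jitAt] at hc
  obtain ⟨x, rfl, h1⟩ := hc
  have : (x.1 : ℕ) ≤ l := hi
  omega

/-- Resampling the coins of a machine does not change what it sees. -/
theorem hist_mix (J : ℕ) (P : Par) (mc : Mach) (vis hid : Leaf) {j : ℕ} (hj : 0 < j)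
    (i a s : ℕ) (b w : Ix n M S Cn → Fin q) :
    hist P (toRnd J (H132.mix (coinAt n M S Cn j s) b w)) vis hid
        (rd P mc (toRnd J (H132.mix (coinAt n M S Cn j s) b w)) vis hid) j i a s =
      hist P (toRnd J w) vis hid (rd P mc (toRnd J w) vis hid) j i a s := by
  have hlt : j - 2 ^ s < j := by have := Nat.one_le_two_pow (n := s); omega
  exact H132.mix_congr (F := fun w : Ix n M S Cn → Fin q =>
    hist P (toRnd J w) vis hid (rd P mc (toRnd J w) vis hid) j i a s)
    ((dependsOn_hist J P mc vis hid j i a s).mono (seen_subset_compl_coinAt hlt)) b w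

/-- Resampling the coins of level `j` does not change the read sets of the lower levels. -/
theorem rd_mix_coin (J : ℕ) (P : Par) (mc : Mach) (vis hid : Leaf) {j l : ℕ} (hl : l < j)
    (s : ℕ) (b w : Ix n M S Cn → Fin q) :
    rd P mc (toRnd J (H132.mix (coinAt n M S Cn j s) b w)) vis hid l =
      rd P mc (toRnd J w) vis hid l :=
  H132.mix_congr (F := fun w : Ix n M S Cn → Fin q => rd P mc (toRnd J w) vis hid l)
    ((dependsOn_rd J P mc vis hid l).mono (upTo_subset_compl_coinAt hl)) b w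

/-- Resampling the jitters of level `j` does not change the own processes of the lower levels. -/
theorem rd_mix_jit (J : ℕ) (P : Par) (mc : Mach) (vis hid : Leaf) {j l : ℕ} (hl : l < j)
    (b w : Ix n M S Cn → Fin q) :
    rd P mc (toRnd J (H132.mix (jitAt n M S Cn j) b w)) vis hid l =
      rd P mc (toRnd J w) vis hid l :=
  H132.mix_congr (F := fun w : Ix n M S Cn → Fin q => rd P mc (toRnd J w) vis hid l)
    ((dependsOn_rd J P mc vis hid l).mono (upTo_subset_compl_jitAt hl)) b w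

theorem cR_mix_jit (J : ℕ) (P : Par) (mc : Mach) (vis hid : Leaf) {j l : ℕ} (hl : l < j)
    (b w : Ix n M S Cn → Fin q) :
    cR P mc (toRnd J (H132.mix (jitAt n M S Cn j) b w)) vis hid l =
      cR P mc (toRnd J w) vis hid l :=
  H132.mix_congr (F := fun w : Ix n M S Cn → Fin q => cR P mc (toRnd J w) vis hid l)
    ((dependsOn_cR J P mc vis hid l).mono (upTo_subset_compl_jitAt hl)) b w

end Seeds

end Vale.Agent.P315.H659
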