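import Vale.Agent.P315.C.StructRd
import Vale.Agent.P315.H763.Bridge

/-!
P315, row C-H3 (helper659): the path of the net next to the comparison path.

A machine works on the nodes `x ≤ 2 * K * g` of a region with label `a` whose units have length
`Tu`; the position of the node `x` is `a * (K * Tu) + x * Tu / g`, rounded down to the mesh `μ`.
The machine graph has `K + 2` rows: a shift, the `K` units, a shift; it starts and ends at coarse
nodes (multiples of `K`).
-/

set_option autoImplicit false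

open Finset

namespace Vale.Agent.P315.H659

section Net

/-- Position of the node `x`. -/
def npos (K Tu g μ B a x : ℕ) : ℕ := μ * min ((a * (K * Tu) + x * Tu / g) / μ) (B / μ)

/-- Label of the unit which starts at the node `x`. -/
def nlab (K Tu g μ B a x : ℕ) : ℕ :=
  max (a * K) (min (npos K Tu g μ B a x / Tu) ((a + 2) * K - 1))

/-- Number of the fine node below `z`. -/
def ffl (K Tu g a z : ℕ) : ℕ := (z - a * (K * Tu)) * g / Tu

/-- Number of the coarse node below `z`. -/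
def cfl (K Tu g a z : ℕ) : ℕ := (z - a * (K * Tu)) * g / (K * Tu)

/-- The nodes next to the comparison path `z 0, …, z K`. -/
def nd (K Tu g a : ℕ) (z : ℕ → ℕ) (i : ℕ) : ℕ :=
  if i = 0 then cfl K Tu g a (z 0) * K
  else if i = K + 2 then cfl K Tu g a (z K) * K else ffl K Tu g a (z (i - 1))

variable {K Tu g μ B a z : ℕ}

theorem npos_le_B {x : ℕ} : npos K Tu g μ B a x ≤ B := by
  unfold npos
  calc μ * min ((a * (K * Tu) + x * Tu / g) / μ) (B / μ) ≤ μ * (B / μ) :=
        Nat.mul_le_mul_left _ (min_le_right _ _)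
    _ ≤ B := Nat.mul_div_le B μ

theorem dvd_npos {x : ℕ} : μ ∣ npos K Tu g μ B a x := Dvd.intro _ rfl

/-- A node whose exact position is at most `z`. -/
theorem npos_eq {x : ℕ} (hx : a * (K * Tu) + x * Tu / g ≤ z) (hz : z ≤ B) :
    npos K Tu g μ B a x = μ * ((a * (K * Tu) + x * Tu / g) / μ) := by
  unfold npos
  rw [min_eq_left (Nat.div_le_div_right (hx.trans hz))]

theorem npos_le {x : ℕ} (hx : a * (K * Tu) + x * Tu / g ≤ z) (hz : z ≤ B) :
    npos K Tu g μ B a x ≤ z := by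
  rw [npos_eq hx hz]
  exact (Nat.mul_div_le _ μ).trans hx

theorem le_npos {x e : ℕ} (hμ : 0 < μ) (hx : a * (K * Tu) + x * Tu / g ≤ z) (hz : z ≤ B)
    (he : z ≤ a * (K * Tu) + x * Tu / g + e + 1) : z ≤ npos K Tu g μ B a x + (e + μ) := by
  rw [npos_eq hx hz]
  have h1 := Nat.div_add_mod (a * (K * Tu) + x * Tu / g) μ
  have h2 := Nat.mod_lt (a * (K * Tu) + x * Tu / g) hμ
  omega

/-- Rounding down to the multiples of `U / g`. -/
theorem floor_aux {U c z' : ℕ} (hg : 0 < g) (hU : 0 < U) (hc : c = z' * g / U) :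
    c * U / g ≤ z' ∧ z' ≤ c * U / g + U / g + 1 := by
  have h1 : c * U ≤ z' * g := by rw [hc]; exact Nat.div_mul_le_self _ _
  have h2 : z' * g < (c + 1) * U := by
    rw [hc]
    exact Nat.lt_mul_of_div_lt (Nat.lt_succ_self _) hU
  constructor
  · exact Nat.div_le_of_le_mul (by rw [Nat.mul_comm g z']; exact h1)
  · have h3 : c * U < (c * U / g + 1) * g := Nat.lt_mul_of_div_lt (Nat.lt_succ_self _) hg
    have h4 : U < (U / g + 1) * g := Nat.lt_mul_of_div_lt (Nat.lt_succ_self _) hg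
    have h5 : z' * g < (c * U / g + U / g + 2) * g := by
      calc z' * g < (c + 1) * U := h2
        _ = c * U + U := by ring
        _ ≤ (c * U / g + 1) * g + (U / g + 1) * g := by omega
        _ = (c * U / g + U / g + 2) * g := by ring
    have h6 : z' < c * U / g + U / g + 2 := Nat.lt_of_mul_lt_mul_right h5
    omega

/-! ### The fine nodes -/

section fine

variable (hg : 0 < g) (hT : 0 < Tu) (hz0 : a * (K * Tu) ≤ z)

include hg hT hz0

theorem ffl_le : a * (K * Tu) + ffl K Tu g a z * Tu / g ≤ z := by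
  have := (floor_aux (c := ffl K Tu g a z) (z' := z - a * (K * Tu)) hg hT rfl).1
  omega

omit hg hT hz0 in
theorem ffl_lt {N : ℕ} (hN : z ≤ a * (K * Tu) + N * Tu) : ffl K Tu g a z ≤ N * g := by
  unfold ffl
  refine Nat.div_le_of_le_mul ?_
  calc (z - a * (K * Tu)) * g ≤ N * Tu * g := Nat.mul_le_mul_right _ (by omega)
    _ = Tu * (N * g) := by ring

/-- The fine node is close to `z`. -/
theorem fine_close (hμ : 0 < μ) (hzB : z ≤ B) :
    npos K Tu g μ B a (ffl K Tu g a z) ≤ z ∧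
      z ≤ npos K Tu g μ B a (ffl K Tu g a z) + (Tu / g + μ) := by
  have h1 := floor_aux (c := ffl K Tu g a z) (z' := z - a * (K * Tu)) hg hT rfl
  have h2 := ffl_le hg hT hz0
  exact ⟨npos_le h2 hzB, le_npos hμ h2 hzB (by omega)⟩

/-- The fine node has the label of `z`. -/
theorem nlab_fine (hμT : μ ∣ Tu) (hμ : 0 < μ) (hzB : z ≤ B)
    (hz1 : z < (a + 2) * (K * Tu)) : nlab K Tu g μ B a (ffl K Tu g a z) = z / Tu := by
  have hle := (fine_close hg hT hz0 hμ hzB).1
  have hak : a * K ≤ z / Tu := by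
    rw [Nat.le_div_iff_mul_le hT]
    calc a * K * Tu = a * (K * Tu) := by ring
      _ ≤ z := hz0
  have hk2 : z / Tu < (a + 2) * K := by
    rw [Nat.div_lt_iff_lt_mul hT]
    calc z < (a + 2) * (K * Tu) := hz1
      _ = (a + 2) * K * Tu := by ring
  have key : z / Tu * Tu ≤ npos K Tu g μ B a (ffl K Tu g a z) := by
    rw [npos_eq (ffl_le hg hT hz0) hzB]
    obtain ⟨k, hk⟩ := Nat.exists_eq_add_of_le hak
    have h1 : k * g ≤ ffl K Tu g a z := by
      unfold ffl
      rw [Nat.le_div_iff_mul_le hT]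
      have h2 : k * Tu ≤ z - a * (K * Tu) := by
        have h3 : z / Tu * Tu ≤ z := Nat.div_mul_le_self _ _
        have h4 : (a * K + k) * Tu = a * (K * Tu) + k * Tu := by ring
        rw [hk, h4] at h3
        omega
      calc k * g * Tu = k * Tu * g := by ring
        _ ≤ (z - a * (K * Tu)) * g := Nat.mul_le_mul_right _ h2
    have h5 : k * Tu ≤ ffl K Tu g a z * Tu / g := by
      rw [Nat.le_div_iff_mul_le hg]
      calc k * Tu * g = k * g * Tu := by ring
        _ ≤ ffl K Tu g a z * Tu := Nat.mul_le_mul_right _ h1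
    have h6 : z / Tu * Tu ≤ a * (K * Tu) + ffl K Tu g a z * Tu / g := by
      have h4 : (a * K + k) * Tu = a * (K * Tu) + k * Tu := by ring
      rw [hk, h4]
      omega
    obtain ⟨c, hc⟩ := hμT
    have h7 : z / Tu * Tu = μ * (z / Tu * c) := by
      calc z / Tu * Tu = z / Tu * (μ * c) := by rw [← hc]
        _ = μ * (z / Tu * c) := by ring
    calc z / Tu * Tu = μ * (z / Tu * c) := h7
      _ ≤ μ * ((a * (K * Tu) + ffl K Tu g a z * Tu / g) / μ) := by
          refine Nat.mul_le_mul_left _ ?_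
          rw [Nat.le_div_iff_mul_le hμ, Nat.mul_comm _ μ, ← h7]
          exact h6
  have h8 : npos K Tu g μ B a (ffl K Tu g a z) / Tu = z / Tu := by
    refine le_antisymm (Nat.div_le_div_right hle) ?_
    rw [Nat.le_div_iff_mul_le hT]
    exact key
  unfold nlab
  rw [h8]
  omega

end fine

/-! ### The coarse nodes -/

section coarse

variable (hg : 0 < g) (hT : 0 < Tu) (hK : 0 < K) (hz0 : a * (K * Tu) ≤ z)

include hg hT hK hz0

theorem cfl_le : a * (K * Tu) + cfl K Tu g a z * K * Tu / g ≤ z := by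
  have := (floor_aux (c := cfl K Tu g a z) (z' := z - a * (K * Tu)) hg
    (Nat.mul_pos hK hT) rfl).1
  rw [← Nat.mul_assoc] at this
  omega

omit hg hT hK hz0 in
theorem cfl_lt {N : ℕ} (hN : z ≤ a * (K * Tu) + N * (K * Tu)) : cfl K Tu g a z ≤ N * g := by
  unfold cfl
  refine Nat.div_le_of_le_mul ?_
  calc (z - a * (K * Tu)) * g ≤ N * (K * Tu) * g := Nat.mul_le_mul_right _ (by omega)
    _ = K * Tu * (N * g) := by ring

/-- The coarse node is close to `z`. -/
theorem coarse_close (hμ : 0 < μ) (hzB : z ≤ B) :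
    npos K Tu g μ B a (cfl K Tu g a z * K) ≤ z ∧
      z ≤ npos K Tu g μ B a (cfl K Tu g a z * K) + (K * Tu / g + μ) := by
  have h1 := floor_aux (c := cfl K Tu g a z) (z' := z - a * (K * Tu)) hg
    (Nat.mul_pos hK hT) rfl
  rw [← Nat.mul_assoc] at h1
  have h2 := cfl_le hg hT hK hz0
  exact ⟨npos_le h2 hzB, le_npos hμ h2 hzB (by omega)⟩

end coarse

/-! ### The path -/

/-- The part `z 0, …, z K` of the comparison path in a region with label `a`. -/
structure ZOK (K Tu a B : ℕ) (z : ℕ → ℕ) : Prop where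
  lo : a * (K * Tu) ≤ z 0
  hi : z 0 < (a + 1) * (K * Tu)
  mono : ∀ m, m < K → z m ≤ z (m + 1)
  step : ∀ m, m < K → z (m + 1) ≤ z m + Tu
  le_B : ∀ m, m ≤ K → z m ≤ B

namespace ZOK

variable {zf : ℕ → ℕ} (h : ZOK K Tu a B zf)

include h

theorem ge (m : ℕ) (hm : m ≤ K) : a * (K * Tu) ≤ zf m := by
  induction m with
  | zero => exact h.lo
  | succ m ih => exact (ih (by omega)).trans (h.mono m (by omega))

theorem lt (m : ℕ) (hm : m ≤ K) : zf m < (a + 1) * (K * Tu) + m * Tu := by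
  induction m with
  | zero => simpa using h.hi
  | succ m ih =>
    have h1 := ih (by omega)
    have h2 := h.step m (by omega)
    have h3 : (m + 1) * Tu = m * Tu + Tu := by ring
    omega

theorem lt2 (m : ℕ) (hm : m ≤ K) : zf m < (a + 2) * (K * Tu) := by
  have h1 := h.lt m hm
  have h2 : m * Tu ≤ K * Tu := Nat.mul_le_mul_right _ hm
  have h3 : (a + 2) * (K * Tu) = (a + 1) * (K * Tu) + K * Tu := by ring
  omega

theorem div_lt (hT : 0 < Tu) (m : ℕ) (hm : m < K) : a * K ≤ zf m / Tu ∧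
    zf m / Tu < (a + 2) * K := by
  constructor
  · rw [Nat.le_div_iff_mul_le hT]
    calc a * K * Tu = a * (K * Tu) := by ring
      _ ≤ zf m := h.ge m hm.le
  · rw [Nat.div_lt_iff_lt_mul hT]
    calc zf m < (a + 2) * (K * Tu) := h.lt2 m hm.le
      _ = (a + 2) * K * Tu := by ring

theorem cfl_start : cfl K Tu g a (zf 0) ≤ g := by
  have := cfl_lt (K := K) (Tu := Tu) (g := g) (a := a) (z := zf 0) (N := 1) (by
    have h1 := h.hi
    have h2 : (a + 1) * (K * Tu) = a * (K * Tu) + 1 * (K * Tu) := by ring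
    omega)
  simpa using this

theorem cfl_end : cfl K Tu g a (zf K) ≤ 2 * g :=
  cfl_lt (by
    have h1 := h.lt2 K le_rfl
    have h2 : (a + 2) * (K * Tu) = a * (K * Tu) + 2 * (K * Tu) := by ring
    omega)

theorem ffl_le' (m : ℕ) (hm : m ≤ K) : ffl K Tu g a (zf m) ≤ 2 * K * g := by
  refine ffl_lt (N := 2 * K) ?_
  have h1 := h.lt2 m hm
  have h2 : (a + 2) * (K * Tu) = a * (K * Tu) + 2 * K * Tu := by ring
  omega

/-- All nodes of the path are in range. -/
theorem nd_lt (i : ℕ) (hi : i ≤ K + 2) : nd K Tu g a zf i < 2 * K * g + 1 := by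
  unfold nd
  split_ifs with h0 h1
  · have := Nat.mul_le_mul_right K (h.cfl_start (g := g))
    nlinarith
  · have := Nat.mul_le_mul_right K (h.cfl_end (g := g))
    nlinarith
  · have := h.ffl_le' (g := g) (i - 1) (by omega)
    omega

end ZOK

theorem nd_zero (zf : ℕ → ℕ) : nd K Tu g a zf 0 = cfl K Tu g a (zf 0) * K := by simp [nd]

theorem nd_last (zf : ℕ → ℕ) : nd K Tu g a zf (K + 2) = cfl K Tu g a (zf K) * K := by
  simp [nd]

theorem nd_mid (zf : ℕ → ℕ) {m : ℕ} (hm : m ≤ K) :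
    nd K Tu g a zf (m + 1) = ffl K Tu g a (zf m) := by
  unfold nd
  rw [if_neg (by omega), if_neg (by omega)]
  rfl

/-- The edges of the path in the machine graph with `p` nodes. -/
def npath (K Tu g a p : ℕ) (hp : 0 < p) (zf : ℕ → ℕ) (i : Fin (K + 2)) : Fin p × Fin p :=
  (⟨nd K Tu g a zf i % p, Nat.mod_lt _ hp⟩, ⟨nd K Tu g a zf (i + 1) % p, Nat.mod_lt _ hp⟩)

theorem npath_val {zf : ℕ → ℕ} (h : ZOK K Tu a B zf) {p : ℕ} (hp : 0 < p)
    (hpn : p = 2 * K * g + 1) (i : Fin (K + 2)) :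
    ((npath K Tu g a p hp zf i).1 : ℕ) = nd K Tu g a zf i ∧
      ((npath K Tu g a p hp zf i).2 : ℕ) = nd K Tu g a zf (i + 1) := by
  subst hpn
  exact ⟨Nat.mod_eq_of_lt (h.nd_lt _ (by omega)), Nat.mod_eq_of_lt (h.nd_lt _ (by omega))⟩

/-- The path is a path of the machine graph between its coarse ends. -/
theorem npath_mem {zf : ℕ → ℕ} (h : ZOK K Tu a B zf) {p : ℕ} (hp : 0 < p)
    (hpn : p = 2 * K * g + 1) : npath K Tu g a p hp zf ∈
      H763.paths (K + 2) p (cfl K Tu g a (zf 0) * K) (cfl K Tu g a (zf K) * K) :=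
  ⟨nd K Tu g a zf, nd_zero zf, nd_last zf, fun i => npath_val h hp hpn i⟩

/-! ### The costs along the path -/

/-- Costs of one round on the machine graph: the rows `0` and `K + 1` are shifts. -/
def nodeF (K Tu g μ B a : ℕ) (F : ℕ → ℕ → ℕ → ℕ → ℕ) (i x y : ℕ) : ℕ :=
  if 1 ≤ i ∧ i ≤ K then
    F (i - 1) (nlab K Tu g μ B a x) (npos K Tu g μ B a x) (npos K Tu g μ B a y)
  else 2 * Nat.dist (npos K Tu g μ B a x) (npos K Tu g μ B a y)

/-- Extension by zero to the rows `0` and `K + 1`. -/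
noncomputable def ext (K : ℕ) (f : ℕ → ℝ) (i : Fin (K + 2)) : ℝ :=
  if 1 ≤ (i : ℕ) ∧ (i : ℕ) ≤ K then f (i - 1) else 0

/-- Rounding error of the fine nodes. -/
def ef (Tu g μ : ℕ) : ℕ := Tu / g + μ

/-- Rounding error of the coarse nodes. -/
def ec (K Tu g μ : ℕ) : ℕ := K * Tu / g + μ

theorem ef_le_ec (hK : 0 < K) : ef Tu g μ ≤ ec K Tu g μ := by
  unfold ef ec
  have : Tu / g ≤ K * Tu / g := Nat.div_le_div_right (Nat.le_mul_of_pos_left _ hK)
  omega

theorem dist_le_of_close {x y z e : ℕ} (hx : x ≤ z) (hx' : z ≤ x + e) (hy : y ≤ z)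
    (hy' : z ≤ y + e) : Nat.dist x y ≤ e := by
  unfold Nat.dist; omega

section cost

variable {zf : ℕ → ℕ} (h : ZOK K Tu a B zf) (hg : 0 < g) (hT : 0 < Tu) (hK : 0 < K)
  (hμ : 0 < μ) (hμT : μ ∣ Tu) {F : ℕ → ℕ → ℕ → ℕ → ℕ}

include h hg hT hK hμ

/-- The two shift rows are cheap. -/
theorem nodeF_end (i : ℕ) (hi : i = 0 ∨ i = K + 1) :
    nodeF K Tu g μ B a F i (nd K Tu g a zf i) (nd K Tu g a zf (i + 1)) ≤
      2 * ec K Tu g μ := by
  have hfc := ef_le_ec (Tu := Tu) (g := g) (μ := μ) hK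
  unfold nodeF
  rw [if_neg (by omega)]
  refine Nat.mul_le_mul_left _ ?_
  rcases hi with rfl | rfl
  · rw [nd_zero, nd_mid zf (Nat.zero_le _)]
    obtain ⟨h1, h2⟩ := coarse_close hg hT hK (h.ge 0 (Nat.zero_le _)) hμ (h.le_B 0 (Nat.zero_le _))
    obtain ⟨h3, h4⟩ := fine_close hg hT (h.ge 0 (Nat.zero_le _)) hμ (h.le_B 0 (Nat.zero_le _))
    unfold ef at hfc
    unfold ec at hfc ⊢
    exact dist_le_of_close h1 h2 h3 (by omega)
  · rw [nd_last, nd_mid zf le_rfl]
    obtain ⟨h1, h2⟩ := coarse_close hg hT hK (h.ge K le_rfl) hμ (h.le_B K le_rfl)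
    obtain ⟨h3, h4⟩ := fine_close hg hT (h.ge K le_rfl) hμ (h.le_B K le_rfl)
    unfold ef at hfc
    unfold ec at hfc ⊢
    exact dist_le_of_close h3 (by omega) h1 h2

include hμT

/-- The unit rows: same label, close ends. -/
theorem nodeF_unit (hF : ∀ m x u v u' v',
      F m x u v ≤ 2 * Nat.dist u u' + F m x u' v' + 2 * Nat.dist v' v) {m : ℕ} (hm : m < K) :
    nodeF K Tu g μ B a F (m + 1) (nd K Tu g a zf (m + 1)) (nd K Tu g a zf (m + 2)) ≤
        F m (zf m / Tu) (zf m) (zf (m + 1)) + 4 * ef Tu g μ ∧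
      F m (zf m / Tu) (zf m) (zf (m + 1)) ≤
        nodeF K Tu g μ B a F (m + 1) (nd K Tu g a zf (m + 1)) (nd K Tu g a zf (m + 2)) +
          4 * ef Tu g μ := by
  unfold nodeF
  rw [if_pos (by omega), nd_mid zf hm.le, nd_mid zf (show m + 1 ≤ K by omega),
    Nat.add_sub_cancel, nlab_fine hg hT (h.ge m hm.le) hμT hμ (h.le_B m hm.le) (h.lt2 m hm.le)]
  obtain ⟨h1, h2⟩ := fine_close hg hT (h.ge m hm.le) hμ (h.le_B m hm.le)
  obtain ⟨h3, h4⟩ := fine_close hg hT (h.ge (m + 1) (by omega)) hμ (h.le_B (m + 1) (by omega))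
  set u := npos K Tu g μ B a (ffl K Tu g a (zf m))
  set v := npos K Tu g μ B a (ffl K Tu g a (zf (m + 1)))
  have e1 := hF m (zf m / Tu) u v (zf m) (zf (m + 1))
  have e2 := hF m (zf m / Tu) (zf m) (zf (m + 1)) u v
  have d1 : Nat.dist u (zf m) ≤ ef Tu g μ := by unfold Nat.dist ef; omega
  have d2 : Nat.dist (zf (m + 1)) v ≤ ef Tu g μ := by unfold Nat.dist ef; omega
  have d3 : Nat.dist (zf m) u = Nat.dist u (zf m) := Nat.dist_comm _ _
  have d4 : Nat.dist v (zf (m + 1)) = Nat.dist (zf (m + 1)) v := Nat.dist_comm _ _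
  constructor <;> omega

/-- The cost of the path in the machine graph is close to the cost of the comparison path, row by
row. -/
theorem nodeF_close (hF : ∀ m x u v u' v',
      F m x u v ≤ 2 * Nat.dist u u' + F m x u' v' + 2 * Nat.dist v' v) (i : Fin (K + 2)) :
    |(nodeF K Tu g μ B a F i (nd K Tu g a zf i) (nd K Tu g a zf (i + 1)) : ℝ) -
        ext K (fun m => (F m (zf m / Tu) (zf m) (zf (m + 1)) : ℝ)) i| ≤
      if 1 ≤ (i : ℕ) ∧ (i : ℕ) ≤ K then 4 * (ef Tu g μ : ℝ) else 2 * (ec K Tu g μ : ℝ) := by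
  unfold ext
  split_ifs with hi
  · obtain ⟨m, hm⟩ : ∃ m, (i : ℕ) = m + 1 := ⟨i - 1, by omega⟩
    rw [hm, Nat.add_sub_cancel]
    obtain ⟨h1, h2⟩ := nodeF_unit h hg hT hK hμ hμT hF (show m < K by omega)
    have h1' : (nodeF K Tu g μ B a F (m + 1) (nd K Tu g a zf (m + 1))
        (nd K Tu g a zf (m + 1 + 1)) : ℝ) ≤
        F m (zf m / Tu) (zf m) (zf (m + 1)) + 4 * ef Tu g μ := by exact_mod_cast h1
    have h2' : (F m (zf m / Tu) (zf m) (zf (m + 1)) : ℝ) ≤
        nodeF K Tu g μ B a F (m + 1) (nd K Tu g a zf (m + 1)) (nd K Tu g a zf (m + 1 + 1)) +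
          4 * ef Tu g μ := by exact_mod_cast h2
    rw [abs_le]
    constructor <;> linarith
  · have h1 := nodeF_end (F := F) h hg hT hK hμ (i : ℕ) (by omega)
    rw [sub_zero, abs_of_nonneg (Nat.cast_nonneg _)]
    exact_mod_cast h1

end cost

end Net

end Vale.Agent.P315.H659
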