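import Vale.Agent.P315.H659.FailW

/-!
P315 (helper659): only the rounds in the active blocks of small rank matter for the failure event;
their number is at most the number of instances times the length of a block.
-/

set_option autoImplicit false

open Finset

namespace Vale.Agent.P315.H659

open C
open H731 (av)
open H801 (rk blk)

/-- The rounds `κ < NR` in the active blocks of rank less than `R`. -/
def roundsA (Dl o R NR : ℕ) (act : ℕ → Prop) [DecidablePred act] : Finset ℕ :=
  (range NR).filter fun κ => act (blk Dl o κ) ∧ rk act (blk Dl o κ) < R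

theorem mem_roundsA {Dl o R NR κ : ℕ} {act : ℕ → Prop} [DecidablePred act] :
    κ ∈ roundsA Dl o R NR act ↔ κ < NR ∧ act (blk Dl o κ) ∧ rk act (blk Dl o κ) < R := by
  unfold roundsA
  rw [Finset.mem_filter, Finset.mem_range]

theorem rk_lt_rk {act : ℕ → Prop} [DecidablePred act] {a b : ℕ} (h : a < b) (ha : act a) :
    rk act a < rk act b := by
  obtain ⟨d, rfl⟩ := Nat.exists_eq_add_of_lt h
  unfold rk
  have h1 : a + d + 1 = a + (d + 1) := by ring
  rw [h1, List.range_add, List.filter_append, List.length_append, List.range_succ_eq_map]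
  have h2 : decide (act a) = true := by simpa using ha
  simp [h2]

/-- The rounds in the active blocks of rank less than `R` are at most `R * Dl`. -/
theorem card_roundsA_le {Dl : ℕ} (hDl : 0 < Dl) (o R NR : ℕ) (act : ℕ → Prop)
    [DecidablePred act] : (roundsA Dl o R NR act).card ≤ R * Dl := by
  have h1 : (roundsA Dl o R NR act).card ≤ (range R ×ˢ range Dl).card := by
    refine Finset.card_le_card_of_injOn
      (fun κ => (rk act (blk Dl o κ), (κ + o) % Dl)) ?_ ?_
    · intro κ hκ
      have h2 := mem_roundsA.1 (Finset.mem_coe.1 hκ)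
      simp only [Finset.coe_product, Finset.coe_range, Set.mem_prod, Set.mem_Iio]
      exact ⟨h2.2.2, Nat.mod_lt _ hDl⟩
    · intro κ hκ κ' hκ' he
      have h2 := mem_roundsA.1 (Finset.mem_coe.1 hκ)
      have h3 := mem_roundsA.1 (Finset.mem_coe.1 hκ')
      have h4 : rk act (blk Dl o κ) = rk act (blk Dl o κ') := congrArg Prod.fst he
      have h5 : (κ + o) % Dl = (κ' + o) % Dl := congrArg Prod.snd he
      have h6 : blk Dl o κ = blk Dl o κ' := by
        rcases lt_trichotomy (blk Dl o κ) (blk Dl o κ') with h | h | h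
        · exact absurd h4 (rk_lt_rk h h2.2.1).ne
        · exact h
        · exact absurd h4 (rk_lt_rk h h3.2.1).ne'
      unfold H801.blk at h6
      have h7 := Nat.div_add_mod (κ + o) Dl
      have h8 := Nat.div_add_mod (κ' + o) Dl
      rw [h6, h5] at h7
      omega
  rwa [Finset.card_product, card_range, card_range] at h1

/-- **Failure of a finite family `Q` of machines** in the rounds `rounds I`; `pc I κ t` = cost of
the stored path number `t` of machine `I` in round `κ`; the sample number `r` is `coin r % T`. -/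
def FailGA {ι : Type*} (Q : Finset ι) (Sm T : ℕ) (rounds : ι → Finset ℕ) (Bd d : ℝ)
    (pc : ι → ℕ → ℕ → ℝ) (coin : ℕ → ℕ) : Prop :=
  ∃ I ∈ Q, FailP Sm T (fun _ r => r) d (rounds I) (fun κ => cutB T Bd (pc I κ)) coin

/-- A good sample. -/
theorem FailGA.exists_sample {ι : Type*} {Q : Finset ι} {Sm T : ℕ} {rounds : ι → Finset ℕ}
    {Bd d : ℝ} {pc : ι → ℕ → ℕ → ℝ} {coin : ℕ → ℕ}
    (hF : ¬ FailGA Q Sm T rounds Bd d pc coin) {I : ι}
    (hI : I ∈ Q) {κ : ℕ} (hκ : κ ∈ rounds I) (hle : (∑ t ∈ range T, pc I κ t) / T ≤ Bd) :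
    ∃ r < Sm, pc I κ (coin r % T) ≤ (∑ t ∈ range T, pc I κ t) / T + d := by
  by_contra hcon
  push Not at hcon
  refine hF ⟨I, hI, κ, hκ, fun r hr => ?_⟩
  beta_reduce
  rw [cutB_eq hle]
  exact hcon r hr

/-- **Probability of the failure** of a finite family of machines of one region and one scale;
all data and the rounds are functions of the own history. -/
theorem failGA_prob {n M S Cn q : ℕ} (J : ℕ) (P : Par) (mc : Mach) (vis hid : Leaf)
    (hq : 0 < q) {ι : Type*}
    (Q : Finset ι) {Sm T NA : ℕ} {Bd d : ℝ} (hTq : T ∣ q) {j s : ℕ} (hj : 0 < j)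
    (hjn : j < n + 1) (hs : s < S) (i a : ℕ) (hSm : Sm ≤ Cn) (hBd : 0 ≤ Bd) (hd : 0 < d)
    (pc : (ℕ → ℕ → ℕ → ℕ → ℕ → ℕ) → ι → ℕ → ℕ → ℝ)
    (h0 : ∀ D I κ t, t < T → 0 ≤ pc D I κ t)
    (rounds : (ℕ → ℕ → ℕ → ℕ → ℕ → ℕ) → ι → Finset ℕ)
    (hNA : ∀ D, ∀ I ∈ Q, (rounds D I).card ≤ NA) :
    av (fun w : Ix n M S Cn → Fin q => Acc.ind
      (FailGA Q Sm T (rounds (ownHist J P mc vis hid j i a s w)) Bd d
        (pc (ownHist J P mc vis hid j i a s w)) ((toRnd J w).coin j s))) ≤
      Q.card * (NA * (Bd / (Bd + d)) ^ Sm) :=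
  fail_region (n := n) (M := M) (S := S) (Cn := Cn) J P mc vis hid hq hTq hj hjn hs i a Q
    (Sm := Sm) (num := fun _ _ r => r) (fun _ _ _ _ hr => lt_of_lt_of_le hr hSm)
    (fun _ _ _ _ _ _ _ h => h) (fun I D κ => cutB T Bd (pc D I κ))
    (fun _ _ _ _ t ht => cutB_nonneg_of (h0 _ _ _ t ht)) (fun _ _ _ _ => cutB_mean hBd _) hd
    (fun I D => rounds D I) (m := NA) (fun I hI _ => hNA _ I hI)
    (fun w => FailGA Q Sm T (rounds (ownHist J P mc vis hid j i a s w)) Bd d
      (pc (ownHist J P mc vis hid j i a s w)) ((toRnd J w).coin j s)) (fun w hw => hw)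

end Vale.Agent.P315.H659
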